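import Mathlib

/-!
Completeness of finite algebras over complete Noetherian local rings.
-/

namespace P190

open IsLocalRing

universe u v

/-- a finite module over an adically complete ring is precomplete -/
lemma isPrecomplete_of_finite {S : Type u} [CommRing S] (I : Ideal S) [IsAdicComplete I S]
    (M : Type v) [AddCommGroup M] [Module S M] [Module.Finite S M] : IsPrecomplete I M := by
  classical
  obtain ⟨m, f, hf⟩ := Module.Finite.exists_fin' S M
  rw [← AdicCompletion.of_surjective_iff]
  intro y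
  obtain ⟨x, rfl⟩ := AdicCompletion.map_surjective I hf y
  have hS : Function.Surjective (AdicCompletion.of I S) := AdicCompletion.of_surjective I S
  choose t ht using fun j : Fin m => hS (AdicCompletion.map I (LinearMap.proj j) x)
  have hx : x = AdicCompletion.of I (Fin m → S) t := by
    apply (AdicCompletion.piEquivFin I m).injective
    rw [AdicCompletion.piEquivFin_apply, AdicCompletion.piEquivFin_apply]
    funext j
    change AdicCompletion.map I (LinearMap.proj j) x =
      AdicCompletion.map I (LinearMap.proj j) (AdicCompletion.of I (Fin m → S) t)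
    rw [AdicCompletion.map_of, ← ht j]
    rfl
  refine ⟨f t, ?_⟩
  rw [hx, AdicCompletion.map_of]

/-- precompleteness only depends on the topology -/
lemma isPrecomplete_of_pow_le {R : Type u} [CommRing R] {J 𝔪 : Ideal R} (hJ : J ≤ 𝔪) {t : ℕ}
    (ht : 𝔪 ^ t ≤ J) (h : IsPrecomplete J R) : IsPrecomplete 𝔪 R := by
  have ht' : 𝔪 ^ (t + 1) ≤ J := (Ideal.pow_le_pow_right (Nat.le_succ t)).trans ht
  refine ⟨fun f hf => ?_⟩
  obtain ⟨L, hL⟩ := h.prec (f := fun m => f ((t + 1) * m)) (by
    intro m n hmn
    have h1 := hf (Nat.mul_le_mul_left (t + 1) hmn)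
    refine h1.mono ?_
    rw [smul_eq_mul, smul_eq_mul, Ideal.mul_top, Ideal.mul_top, pow_mul]
    exact Ideal.pow_right_mono ht' m)
  refine ⟨L, fun n => ?_⟩
  have h1 := hf (show n ≤ (t + 1) * n by nlinarith)
  refine h1.trans ((hL n).mono ?_)
  rw [smul_eq_mul, smul_eq_mul, Ideal.mul_top, Ideal.mul_top]
  exact Ideal.pow_right_mono hJ n

section PowerExt

variable {S : Type u} {R : Type v} [CommRing S] [CommRing R] [Algebra S R]

/-- Local rings ascend along purely inseparable extensions. -/
lemma isLocalRing_of_pow [IsLocalRing S] (hinj : Function.Injective (algebraMap S R))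
    {q : ℕ} (hq : 0 < q) (hadd : ∀ f g : R, (f + g) ^ q = f ^ q + g ^ q)
    (hpow : ∀ f : R, ∃ s : S, algebraMap S R s = f ^ q) : IsLocalRing R := by
  have hnt : Nontrivial R := hinj.nontrivial
  have hunit : ∀ s : S, IsUnit (algebraMap S R s) → IsUnit s := by
    intro s hs
    obtain ⟨h, hh⟩ := hs.exists_right_inv
    obtain ⟨t, ht⟩ := hpow h
    have : algebraMap S R (s ^ q * t) = 1 := by
      rw [map_mul, map_pow, ht, ← mul_pow, hh, one_pow]
    have h1 : s ^ q * t = 1 := hinj (by rw [this, map_one])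
    exact (isUnit_pow_iff hq.ne').mp (IsUnit.of_mul_eq_one t h1)
  refine IsLocalRing.of_nonunits_add fun f g hf hg => ?_
  rw [mem_nonunits_iff] at hf hg ⊢
  intro hfg
  obtain ⟨s, hs⟩ := hpow f
  obtain ⟨t, ht⟩ := hpow g
  have h1 : IsUnit (algebraMap S R (s + t)) := by
    rw [map_add, hs, ht, ← hadd]
    exact hfg.pow q
  rcases IsLocalRing.isUnit_or_isUnit_of_isUnit_add (hunit _ h1) with h2 | h2
  · apply hf
    have := h2.map (algebraMap S R)
    rw [hs] at this
    exact (isUnit_pow_iff hq.ne').mp this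
  · apply hg
    have := h2.map (algebraMap S R)
    rw [ht] at this
    exact (isUnit_pow_iff hq.ne').mp this

lemma mem_maximalIdeal_of_map [IsLocalRing S] [IsLocalRing R]
    (hinj : Function.Injective (algebraMap S R)) {q : ℕ} (hq : 0 < q)
    (hpow : ∀ f : R, ∃ s : S, algebraMap S R s = f ^ q) {s : S} :
    algebraMap S R s ∈ maximalIdeal R ↔ s ∈ maximalIdeal S := by
  rw [mem_maximalIdeal, mem_maximalIdeal, mem_nonunits_iff, mem_nonunits_iff, not_iff_not]
  refine ⟨fun hs => ?_, fun hs => hs.map _⟩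
  obtain ⟨h, hh⟩ := hs.exists_right_inv
  obtain ⟨t, ht⟩ := hpow h
  have : algebraMap S R (s ^ q * t) = 1 := by
    rw [map_mul, map_pow, ht, ← mul_pow, hh, one_pow]
  have h1 : s ^ q * t = 1 := hinj (by rw [this, map_one])
  exact (isUnit_pow_iff hq.ne').mp (IsUnit.of_mul_eq_one t h1)

/-- completeness ascends -/
lemma isAdicComplete_of_pow [IsLocalRing S] [IsLocalRing R] [IsNoetherianRing R]
    [Module.Finite S R] [IsAdicComplete (maximalIdeal S) S]
    (hinj : Function.Injective (algebraMap S R)) {q : ℕ} (hq : 0 < q)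
    (hpow : ∀ f : R, ∃ s : S, algebraMap S R s = f ^ q) :
    IsAdicComplete (maximalIdeal R) R := by
  have h1 : IsPrecomplete (maximalIdeal S) R := isPrecomplete_of_finite _ _
  rw [← IsPrecomplete.map_algebraMap_iff (S := R)] at h1
  have hle : (maximalIdeal S).map (algebraMap S R) ≤ maximalIdeal R := by
    rw [Ideal.map_le_iff_le_comap]
    intro s hs
    exact (mem_maximalIdeal_of_map hinj hq hpow).mpr hs
  have hrad : maximalIdeal R ≤ ((maximalIdeal S).map (algebraMap S R)).radical := by
    intro f hf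
    obtain ⟨s, hs⟩ := hpow f
    refine ⟨q, ?_⟩
    rw [← hs]
    apply Ideal.mem_map_of_mem
    rw [← mem_maximalIdeal_of_map hinj hq hpow, hs]
    exact Ideal.pow_mem_of_mem _ hf q hq
  obtain ⟨t, ht⟩ := Ideal.exists_pow_le_of_le_radical_of_fg hrad
    (IsNoetherian.noetherian (maximalIdeal R))
  have h2 : IsPrecomplete (maximalIdeal R) R := isPrecomplete_of_pow_le hle ht h1
  exact { (inferInstance : IsHausdorff (maximalIdeal R) R), h2 with }

/-- dimension is preserved -/
lemma ringKrullDim_eq_of_pow {q : ℕ} (hq : 0 < q) (hinj : Function.Injective (algebraMap S R))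
    (hpow : ∀ f : R, ∃ s : S, algebraMap S R s = f ^ q) :
    ringKrullDim R = ringKrullDim S := by
  have h := PrimeSpectrum.isHomeomorph_comap (algebraMap S R)
    (fun x => ⟨q, hq, by obtain ⟨s, hs⟩ := hpow x; exact ⟨s, hs⟩⟩)
    (by rw [(RingHom.injective_iff_ker_eq_bot _).mp hinj]; exact bot_le)
  rw [← PrimeSpectrum.topologicalKrullDim_eq_ringKrullDim,
    ← PrimeSpectrum.topologicalKrullDim_eq_ringKrullDim]
  exact IsHomeomorph.topologicalKrullDim_eq _ h

lemma ringKrullDim_quot_eq_of_pow {q : ℕ} (hq : 0 < q)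
    (hpow : ∀ f : R, ∃ s : S, algebraMap S R s = f ^ q) (P : Ideal R) :
    ringKrullDim (R ⧸ P) = ringKrullDim (S ⧸ P.comap (algebraMap S R)) := by
  refine ringKrullDim_eq_of_pow (S := S ⧸ P.comap (algebraMap S R)) (R := R ⧸ P) hq ?_ ?_
  · exact Ideal.algebraMap_quotient_injective
  · intro f
    obtain ⟨f, rfl⟩ := Ideal.Quotient.mk_surjective f
    obtain ⟨s, hs⟩ := hpow f
    refine ⟨Ideal.Quotient.mk _ s, ?_⟩
    change Ideal.Quotient.mk P (algebraMap S R s) = _
    rw [hs, map_pow]

end PowerExt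

end P190
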