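import Mathlib

/-!
The definition of small Cohen-Macaulay modules.
-/

namespace P190

/-- A small Cohen-Macaulay module over a local ring `R`: a nonzero finitely generated module
having a regular sequence in the maximal ideal whose length is the Krull dimension of `R`. -/
structure IsSmallCM (R : Type*) [CommRing R] [IsLocalRing R] (M : Type*) [AddCommGroup M]
    [Module R M] : Prop where
  finite : Module.Finite R M
  nontrivial : Nontrivial M
  depth : ∃ rs : List R, (∀ r ∈ rs, r ∈ IsLocalRing.maximalIdeal R) ∧
    RingTheory.Sequence.IsRegular M rs ∧ (rs.length : WithBot ℕ∞) = ringKrullDim R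

end P190
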