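import Mathlib

/-!
Depth lemmas over Noetherian local rings.
-/

namespace P190

open IsLocalRing RingTheory.Sequence CategoryTheory Abelian
open scoped Pointwise

universe u

variable {R : Type u} [CommRing R] [IsNoetherianRing R] [IsLocalRing R]

/-- A regular element and an associated prime: there is an associated prime of `M/rM` above. -/
lemma exists_assoc_quot {M : Type u} [AddCommGroup M] [Module R M] [Module.Finite R M]
    {r : R} (hr : r ∈ maximalIdeal R) (hreg : IsSMulRegular M r)
    {P : Ideal R} (hP : P ∈ associatedPrimes R M) :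
    ∃ Q ∈ associatedPrimes R (QuotSMulTop r M), P ≤ Q ∧ r ∈ Q := by
  obtain ⟨hPp, u, hu⟩ := (isAssociatedPrime_iff).mp hP
  have hmem : ∀ a : R, a ∈ P ↔ a • u = 0 := by
    intro a
    rw [hu, Submodule.mem_colon_singleton, Submodule.mem_bot]
  -- the submodule of elements killed by P
  let N : Submodule R M := Submodule.torsionBySet R M (P : Set R)
  have hN : ∀ z : M, z ∈ N ↔ ∀ a ∈ P, a • z = 0 := by
    intro z
    rw [Submodule.mem_torsionBySet_iff]
    exact ⟨fun h a ha => h ⟨a, ha⟩, fun h a => h a.1 a.2⟩
  have huN : u ∈ N := (hN u).mpr fun a ha => (hmem a).mp ha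
  have hu0 : u ≠ 0 := by
    rintro rfl
    apply hPp.ne_top
    rw [Ideal.eq_top_iff_one, hmem]
    simp
  have hex : ∃ z ∈ N, z ∉ (r • ⊤ : Submodule R M) := by
    by_contra hcon
    push Not at hcon
    have hle : N ≤ maximalIdeal R • N := by
      intro z hz
      have hz' := hcon z hz
      rw [Submodule.mem_smul_pointwise_iff_exists] at hz'
      obtain ⟨w, -, hw⟩ := hz'
      have hwN : w ∈ N := by
        rw [hN] at hz ⊢
        intro a ha
        apply hreg
        have := hz a ha
        rw [← hw] at this
        simp only [smul_zero]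
        rw [smul_comm]
        exact this
      rw [← hw]
      exact Submodule.smul_mem_smul hr hwN
    have hbot : N = ⊥ := Submodule.eq_bot_of_le_smul_of_le_jacobson_bot (maximalIdeal R) N
      (IsNoetherian.noetherian N) hle (maximalIdeal_le_jacobson _)
    rw [hbot] at huN
    exact hu0 (by simpa using huN)
  obtain ⟨z, hzN, hz⟩ := hex
  let zb : QuotSMulTop r M := Submodule.Quotient.mk z
  have hzb : zb ≠ 0 := by
    intro h
    exact hz ((Submodule.Quotient.mk_eq_zero _).mp h)
  obtain ⟨Q, hQ, hQle⟩ := exists_le_isAssociatedPrime_of_isNoetherianRing R zb hzb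
  refine ⟨Q, hQ, ?_, ?_⟩
  · intro a ha
    apply hQle
    rw [Submodule.mem_colon_singleton, Submodule.mem_bot]
    change a • (Submodule.Quotient.mk z : QuotSMulTop r M) = 0
    rw [← Submodule.Quotient.mk_smul, (hN z).mp hzN a ha, Submodule.Quotient.mk_zero]
  · apply hQle
    rw [Submodule.mem_colon_singleton, Submodule.mem_bot]
    change r • (Submodule.Quotient.mk z : QuotSMulTop r M) = 0
    rw [← Submodule.Quotient.mk_smul, Submodule.Quotient.mk_eq_zero]
    exact Submodule.smul_mem_pointwise_smul _ _ _ trivial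

/-- depth is at most the dimension of `R/P` for associated primes `P`. -/
lemma length_le_dim_quot (rs : List R) : ∀ {M : Type u} [AddCommGroup M] [Module R M]
    [Module.Finite R M], (∀ r ∈ rs, r ∈ maximalIdeal R) → IsRegular M rs →
    ∀ {P : Ideal R}, P ∈ associatedPrimes R M → (rs.length : WithBot ℕ∞) ≤ ringKrullDim (R ⧸ P) := by
  induction rs with
  | nil =>
    intro M _ _ _ _ _ P hP
    have : P.IsPrime := IsAssociatedPrime.isPrime hP
    simpa using ringKrullDim_nonneg_of_nontrivial (R := R ⧸ P)
  | cons r rs ih =>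
    intro M _ _ _ hmem hreg P hP
    rw [isRegular_cons_iff] at hreg
    have hr : r ∈ maximalIdeal R := hmem r (by simp)
    obtain ⟨Q, hQ, hPQ, hrQ⟩ := exists_assoc_quot hr hreg.1 hP
    have h1 := ih (M := QuotSMulTop r M) (fun s hs => hmem s (by simp [hs])) hreg.2 hQ
    have hPp : P.IsPrime := IsAssociatedPrime.isPrime hP
    have hQp : Q.IsPrime := IsAssociatedPrime.isPrime hQ
    have hrP : r ∉ P := by
      intro hrP
      obtain ⟨_, u, hu⟩ := (isAssociatedPrime_iff).mp hP
      have hmemP : ∀ a : R, a ∈ P ↔ a • u = 0 := by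
        intro a
        rw [hu, Submodule.mem_colon_singleton, Submodule.mem_bot]
      have h0 : u = 0 := by
        apply hreg.1
        simpa using (hmemP r).mp hrP
      apply hPp.ne_top
      rw [Ideal.eq_top_iff_one, hmemP, h0]
      simp
    have h2 : ringKrullDim (R ⧸ Q) + 1 ≤ ringKrullDim (R ⧸ P) := by
      refine ringKrullDim_succ_le_of_surjective (Ideal.Quotient.factor hPQ)
        (Ideal.Quotient.factor_surjective hPQ) (r := Ideal.Quotient.mk P r) ?_ ?_
      · rw [mem_nonZeroDivisors_iff_ne_zero]
        intro h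
        exact hrP (Ideal.Quotient.eq_zero_iff_mem.mp h)
      · rw [Ideal.Quotient.factor_mk]
        exact Ideal.Quotient.eq_zero_iff_mem.mpr hrQ
    refine le_trans ?_ h2
    rw [List.length_cons]
    push_cast
    gcongr

/-- dropping depth by one modulo a regular element. -/
lemma exists_regular_quot {M : Type u} [AddCommGroup M] [Module R M] [Module.Finite R M]
    [Nontrivial M]
    {a : R} (ha : a ∈ maximalIdeal R) (hreg : IsSMulRegular M a) {n : ℕ}
    (h : ∃ rs : List R, rs.length = n + 1 ∧ (∀ r ∈ rs, r ∈ maximalIdeal R) ∧ IsRegular M rs) :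
    ∃ rs : List R, rs.length = n ∧ (∀ r ∈ rs, r ∈ maximalIdeal R) ∧
      IsRegular (QuotSMulTop a M) rs := by
  obtain ⟨rs, hlen, hmem, hrs⟩ := h
  have hne : ∀ (L : Type u) [AddCommGroup L] [Module R L] [Module.Finite R L] [Nontrivial L],
      maximalIdeal R • (⊤ : Submodule R L) < ⊤ := by
    intro L _ _ _ _
    rw [lt_top_iff_ne_top, ne_comm]
    exact Submodule.top_ne_ideal_smul_of_le_jacobson_annihilator (maximalIdeal_le_jacobson _)
  have : Nontrivial (QuotSMulTop a M) := nontrivial_quotSMulTop_of_mem_maximalIdeal M ha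
  let N : ModuleCat.{u} R := ModuleCat.of R (R ⧸ maximalIdeal R)
  have hfin : Module.Finite R N := inferInstanceAs (Module.Finite R (R ⧸ maximalIdeal R))
  have hsupp : Module.support R N = PrimeSpectrum.zeroLocus (maximalIdeal R) := by
    change Module.support R (R ⧸ maximalIdeal R) = _
    rw [Module.support_eq_zeroLocus, Ideal.annihilator_quotient]
  have hM := ModuleCat.subsingleton_ext_of_exists_isRegular (maximalIdeal R) N hsupp.subset
    (ModuleCat.of R M) (hne M) rs hmem hrs
  refine ModuleCat.exists_isRegular_of_exists_subsingleton_ext (maximalIdeal R) n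
    (ModuleCat.of R (QuotSMulTop a M)) (hne _) N hsupp ?_
  intro i hi
  have h1 : Subsingleton (Ext N (ModuleCat.of R M) i) := hM i (by omega)
  have h2 : Subsingleton (Ext N (ModuleCat.of R M) (i + 1)) := hM (i + 1) (by omega)
  have hex := Ext.covariant_sequence_exact₃' N
    (IsSMulRegular.smulShortComplex_shortExact (M := ModuleCat.of R M) hreg) i (i + 1) rfl
  exact AddCommGrpCat.subsingleton_of_isZero (hex.isZero_of_both_zeros
    ((AddCommGrpCat.isZero_of_iff_subsingleton.mpr h1).eq_zero_of_src _)
    ((AddCommGrpCat.isZero_of_iff_subsingleton.mpr h2).eq_zero_of_tgt _))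

/-- Sequences that cut down the dimension are regular on modules of maximal depth. -/
lemma isRegular_of_dim (xs : List R) : ∀ (I : Ideal R) {M : Type u} [AddCommGroup M] [Module R M]
    [Module.Finite R M] [Nontrivial M], (∀ x ∈ xs, x ∈ maximalIdeal R) →
    (∀ a ∈ I, ∀ m : M, a • m = 0) →
    (∃ rs : List R, rs.length = xs.length ∧ (∀ r ∈ rs, r ∈ maximalIdeal R) ∧ IsRegular M rs) →
    (∀ i < xs.length, ∀ P : Ideal R, P.IsPrime → I ≤ P → (∀ x ∈ xs.take (i + 1), x ∈ P) →
      ringKrullDim (R ⧸ P) < ((xs.length - i : ℕ) : WithBot ℕ∞)) →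
    IsRegular M xs := by
  induction xs with
  | nil => intro I M _ _ _ _ _ _ _ _; exact IsRegular.nil R M
  | cons x xs ih =>
    intro I M _ _ _ _ hmem hI hdepth hdim
    have hx : x ∈ maximalIdeal R := hmem x (by simp)
    have hreg : IsSMulRegular M x := by
      by_contra hcon
      have hz : ∃ z : M, z ≠ 0 ∧ x • z = 0 := by
        by_contra hall
        push Not at hall
        apply hcon
        intro y₁ y₂ hy
        by_contra hne
        refine hall (y₁ - y₂) (sub_ne_zero.mpr hne) ?_
        rw [smul_sub, sub_eq_zero]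
        exact hy
      obtain ⟨z, hz0, hxz⟩ := hz
      obtain ⟨P, hP, hPle⟩ := exists_le_isAssociatedPrime_of_isNoetherianRing R z hz0
      have hxP : x ∈ P := hPle (by rw [Submodule.mem_colon_singleton, hxz]; exact zero_mem _)
      have hIP : I ≤ P := by
        intro a ha
        exact hPle (by rw [Submodule.mem_colon_singleton, hI a ha]; exact zero_mem _)
      obtain ⟨rs, hlen, hrs, hrsreg⟩ := hdepth
      have h1 := length_le_dim_quot rs hrs hrsreg (P := P) hP
      have h2 := hdim 0 (by simp) P (IsAssociatedPrime.isPrime hP) hIP (by simpa using hxP)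
      rw [hlen] at h1
      simp only [Nat.sub_zero] at h2
      exact absurd (lt_of_le_of_lt h1 h2) (lt_irrefl _)
    refine (isRegular_cons_iff M x xs).mpr ⟨hreg, ?_⟩
    have : Nontrivial (QuotSMulTop x M) := nontrivial_quotSMulTop_of_mem_maximalIdeal M hx
    refine ih (I ⊔ Ideal.span {x}) (fun y hy => hmem y (by simp [hy])) ?_ ?_ ?_
    · intro a ha m
      obtain ⟨b, hb, c, hc, rfl⟩ := Submodule.mem_sup.mp ha
      obtain ⟨d, rfl⟩ := Ideal.mem_span_singleton'.mp hc
      obtain ⟨m, rfl⟩ := Submodule.Quotient.mk_surjective _ m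
      rw [← Submodule.Quotient.mk_smul, Submodule.Quotient.mk_eq_zero, add_smul, hI b hb, zero_add,
        mul_comm, mul_smul]
      exact Submodule.smul_mem_pointwise_smul _ _ _ trivial
    · exact exists_regular_quot hx hreg (by simpa using hdepth)
    · intro i hi P hP hle htake
      have := hdim (i + 1) (by simpa using hi) P hP (le_sup_left.trans hle) (by
        intro y hy
        rw [List.take_succ_cons, List.mem_cons] at hy
        rcases hy with rfl | hy
        · exact hle (Ideal.mem_sup_right (Ideal.mem_span_singleton_self _))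
        · exact htake y hy)
      simpa using this

end P190
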