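import Mathlib

/-!
The rational function field over the prime field, and the monomial basis over its `p^s`-th powers.
-/

namespace P190

open MvPolynomial

variable (p : ℕ) [hp : Fact p.Prime] (s n : ℕ)

/-- The polynomial ring. -/
abbrev Pol : Type := MvPolynomial (Fin n) (ZMod p)

/-- The field of rational functions. -/
abbrev BigK : Type := FractionRing (Pol p n)

instance : CharP (BigK p n) p := inferInstance

/-- The subfield of `p^s`-th powers. -/
noncomputable abbrev SmallK : Subfield (BigK p n) := (iterateFrobenius (BigK p n) p s).fieldRange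

lemma pow_eq_expand (f : Pol p n) : f ^ (p ^ s) = expand (p ^ s) f := by
  induction s generalizing f with
  | zero => simp
  | succ s ih => rw [pow_succ, pow_mul, ih, expand_mul, expand_zmod, map_pow]

/-- the variables in the field -/
noncomputable def xvar (j : Fin n) : BigK p n := algebraMap (Pol p n) (BigK p n) (X j)

lemma pow_mem_SmallK (u : BigK p n) : u ^ (p ^ s) ∈ SmallK p s n :=
  ⟨u, by simp [iterateFrobenius_def]⟩

lemma coeff_aux {q : ℕ} (hq : 0 < q) (f : Pol p n) (e e' : Fin n → Fin q) (m : Fin n →₀ ℕ) :
    coeff (q • m + Finsupp.equivFunOnFinite.symm (fun j => (e j).val))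
      (expand q f * monomial (Finsupp.equivFunOnFinite.symm (fun j => (e' j).val)) 1) =
      if e = e' then coeff m f else 0 := by
  rw [coeff_mul_monomial']
  split_ifs with h1 h2 h2
  · subst h2
    rw [add_tsub_cancel_right, coeff_expand_smul q hq.ne', mul_one]
  · obtain ⟨j, hj⟩ : ∃ j, e j ≠ e' j := by
      by_contra hcon
      push Not at hcon
      exact h2 (funext hcon)
    rw [coeff_expand_of_not_dvd (i := j), zero_mul]
    intro hdvd
    have h1j := h1 j
    simp only [Finsupp.tsub_apply, Finsupp.add_apply, Finsupp.smul_apply, smul_eq_mul,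
      Finsupp.equivFunOnFinite_symm_apply_apply] at hdvd h1j
    apply hj
    have he := (e j).2
    have he' := (e' j).2
    apply Fin.ext
    obtain ⟨t, ht⟩ := hdvd
    have h4 : q * m j + (e j).val = q * t + (e' j).val := by omega
    have h5 : (q * m j + (e j).val) % q = (q * t + (e' j).val) % q := by rw [h4]
    rwa [Nat.mul_add_mod, Nat.mul_add_mod, Nat.mod_eq_of_lt he, Nat.mod_eq_of_lt he'] at h5
  · exfalso
    subst h2
    exact h1 (by simp)
  · rfl

/-- monomials in the field -/
noncomputable def xmon {q : ℕ} (e : Fin n → Fin q) : BigK p n := ∏ j, xvar p n j ^ (e j).val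

lemma xmon_eq {q : ℕ} (e : Fin n → Fin q) : xmon p n e = algebraMap (Pol p n) (BigK p n)
    (monomial (Finsupp.equivFunOnFinite.symm (fun j => (e j).val)) 1) := by
  rw [xmon, monomial_eq]
  simp only [map_one, one_mul]
  rw [Finsupp.prod_fintype _ _ (by simp), map_prod]
  simp [xvar]

lemma linearIndependent_xmon :
    LinearIndependent (SmallK p s n) (fun e : Fin n → Fin (p ^ s) => xmon p n e) := by
  have hq : 0 < p ^ s := pow_pos hp.out.pos s
  rw [Fintype.linearIndependent_iff]
  intro g hg
  -- choose roots
  have hroot : ∀ e, ∃ d : BigK p n, d ^ (p ^ s) = (g e : BigK p n) := by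
    intro e
    obtain ⟨d, hd⟩ := (g e).2
    exact ⟨d, by rw [← hd]; simp [iterateFrobenius_def]⟩
  choose d hd using hroot
  obtain ⟨b, hb⟩ := IsLocalization.exist_integer_multiples_of_finite
    (nonZeroDivisors (Pol p n)) d
  choose f hf using hb
  have hb0 : algebraMap (Pol p n) (BigK p n) b ≠ 0 := by
    simpa using nonZeroDivisors.coe_ne_zero b
  have hsum : ∑ e, expand (p ^ s) (f e) *
      monomial (Finsupp.equivFunOnFinite.symm (fun j => (e j).val)) (1 : ZMod p) = 0 := by
    apply IsFractionRing.injective (Pol p n) (BigK p n)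
    rw [map_zero, map_sum]
    have : ∀ e, algebraMap (Pol p n) (BigK p n) (expand (p ^ s) (f e) *
        monomial (Finsupp.equivFunOnFinite.symm (fun j => (e j).val)) (1 : ZMod p)) =
        algebraMap (Pol p n) (BigK p n) b ^ (p ^ s) * (g e • xmon p n e) := by
      intro e
      rw [map_mul, ← xmon_eq, ← pow_eq_expand, map_pow, hf, Subfield.smul_def, ← hd, Algebra.smul_def,
        mul_pow, smul_eq_mul]
      ring
    simp_rw [this]
    rw [← Finset.mul_sum, hg, mul_zero]
  intro e
  have hfe : f e = 0 := by
    ext m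
    have := congrArg (coeff (p ^ s • m +
      Finsupp.equivFunOnFinite.symm (fun j => (e j).val))) hsum
    rw [coeff_sum] at this
    simp_rw [coeff_aux p n hq] at this
    simpa using this
  have h1 : algebraMap (Pol p n) (BigK p n) b * d e = 0 := by
    have := hf e
    rw [hfe, map_zero, Algebra.smul_def] at this
    exact this.symm
  have h2 : d e = 0 := (mul_eq_zero.mp h1).resolve_left hb0
  apply Subtype.ext
  rw [← hd, h2, zero_pow hq.ne']
  rfl

lemma span_xmon :
    (⊤ : Submodule (SmallK p s n) (BigK p n)) ≤
      Submodule.span (SmallK p s n) (Set.range (fun e : Fin n → Fin (p ^ s) => xmon p n e)) := by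
  have hq : 0 < p ^ s := pow_pos hp.out.pos s
  have hpoly : ∀ f : Pol p n, algebraMap (Pol p n) (BigK p n) f ∈
      Submodule.span (SmallK p s n) (Set.range (fun e : Fin n → Fin (p ^ s) => xmon p n e)) := by
    intro f
    induction f using MvPolynomial.induction_on' with
    | monomial m a =>
      have : algebraMap (Pol p n) (BigK p n) (monomial m a) =
          (⟨(algebraMap (Pol p n) (BigK p n) (C a) * ∏ j, xvar p n j ^ (m j / p ^ s)) ^ (p ^ s),
            pow_mem_SmallK p s n _⟩ : SmallK p s n) •
            xmon p n (fun j => (⟨m j % p ^ s, Nat.mod_lt _ hq⟩ : Fin (p ^ s))) := by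
        rw [Subfield.smul_def, smul_eq_mul]
        simp only
        rw [mul_pow, ← map_pow, ← map_pow, ZMod.pow_card_pow, xmon, mul_assoc, ← Finset.prod_pow,
          ← Finset.prod_mul_distrib, monomial_eq, map_mul, Finsupp.prod_fintype _ _ (by simp),
          map_prod]
        congr 1
        refine Finset.prod_congr rfl fun j _ => ?_
        rw [← pow_mul, ← pow_add, mul_comm (m j / p ^ s), Nat.div_add_mod, map_pow]
        rfl
      rw [this]
      exact Submodule.smul_mem _ _ (Submodule.subset_span ⟨_, rfl⟩)
    | add f g hf hg =>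
      rw [map_add]
      exact add_mem hf hg
  intro u _
  obtain ⟨f, g, hg, rfl⟩ := IsFractionRing.div_surjective (A := Pol p n) u
  have hg0 : algebraMap (Pol p n) (BigK p n) g ≠ 0 := by
    simpa using nonZeroDivisors.ne_zero hg
  have : algebraMap (Pol p n) (BigK p n) f / algebraMap (Pol p n) (BigK p n) g =
      (⟨((algebraMap (Pol p n) (BigK p n) g)⁻¹) ^ (p ^ s), pow_mem_SmallK p s n _⟩ :
        SmallK p s n) • algebraMap (Pol p n) (BigK p n) (f * g ^ (p ^ s - 1)) := by
    rw [Subfield.smul_def, smul_eq_mul]
    simp only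
    rw [map_mul, map_pow]
    obtain ⟨t, ht⟩ : ∃ t, p ^ s = t + 1 := ⟨p ^ s - 1, by omega⟩
    rw [ht, Nat.add_sub_cancel, pow_succ, inv_pow]
    field_simp
  rw [this]
  exact Submodule.smul_mem _ _ (hpoly _)

/-- the monomial basis -/
noncomputable def xbasis : Module.Basis (Fin n → Fin (p ^ s)) (SmallK p s n) (BigK p n) :=
  Module.Basis.mk (linearIndependent_xmon p s n) (span_xmon p s n)

lemma xbasis_apply (e : Fin n → Fin (p ^ s)) :
    xbasis p s n e = ∏ j, xvar p n j ^ (e j).val := by
  rw [xbasis, Module.Basis.mk_apply]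
  rfl

end P190
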