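import Mathlib

/-!
Freeness over a local ring whose maximal ideal is generated by a sequence regular on the module.
-/

namespace P190

open IsLocalRing RingTheory.Sequence
open scoped Pointwise

universe u v

lemma free_of_regular : ∀ (n : ℕ) (S : Type u) [CommRing S] [IsLocalRing S] [IsNoetherianRing S]
    (M : Type v) [AddCommGroup M] [Module S M] [Module.Finite S M] (rs : List S),
    rs.length = n → Ideal.ofList rs = maximalIdeal S → IsWeaklyRegular M rs →
    Module.Free S M := by
  intro n
  induction n with
  | zero =>
    intro S _ _ _ M _ _ _ rs hlen hmax _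
    have hrs : rs = [] := List.length_eq_zero_iff.mp hlen
    subst hrs
    rw [Ideal.ofList_nil] at hmax
    have hF : IsField S := IsLocalRing.isField_iff_maximalIdeal_eq.mpr hmax.symm
    let _ := hF.toField
    exact Module.Free.of_divisionRing S M
  | succ n ih =>
    intro S _ _ _ M _ _ _ rs hlen hmax hreg
    obtain ⟨r, rs, rfl⟩ : ∃ r rs', rs = r :: rs' := by
      cases rs with
      | nil => simp at hlen
      | cons r rs => exact ⟨r, rs, rfl⟩
    have hr : r ∈ maximalIdeal S := by
      rw [← hmax, Ideal.ofList_cons]
      exact Ideal.mem_sup_left (Ideal.mem_span_singleton_self r)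
    rw [isWeaklyRegular_cons_iff'] at hreg
    have hle : Ideal.span {r} ≤ maximalIdeal S := by
      rw [Ideal.span_singleton_le_iff_mem]; exact hr
    have hne : Ideal.span {r} ≠ ⊤ := ne_top_of_le_ne_top (maximalIdeal.isMaximal S).ne_top hle
    have : Nontrivial (S ⧸ Ideal.span {r}) := Ideal.Quotient.nontrivial_iff.mpr hne
    have hloc : IsLocalRing (S ⧸ Ideal.span {r}) :=
      IsLocalRing.of_surjective' (Ideal.Quotient.mk (Ideal.span {r})) Ideal.Quotient.mk_surjective
    have hfin : Module.Finite (S ⧸ Ideal.span {r}) (QuotSMulTop r M) :=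
      Module.Finite.of_restrictScalars_finite S _ _
    have hfree : Module.Free (S ⧸ Ideal.span {r}) (QuotSMulTop r M) := by
      refine ih (S ⧸ Ideal.span {r}) (QuotSMulTop r M) (rs.map (Ideal.Quotient.mk (Ideal.span {r})))
        (by simpa using hlen) ?_ hreg.2
      rw [← Ideal.map_ofList]
      have h1 : Ideal.map (Ideal.Quotient.mk (Ideal.span {r})) (Ideal.ofList (r :: rs)) =
          Ideal.map (Ideal.Quotient.mk (Ideal.span {r})) (Ideal.ofList rs) := by
        rw [Ideal.ofList_cons, Ideal.map_sup]
        have : Ideal.map (Ideal.Quotient.mk (Ideal.span {r})) (Ideal.span {r}) = ⊥ := by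
          rw [Ideal.map_quotient_self]
        rw [this, bot_sup_eq]
      rw [← h1, hmax]
      exact IsLocalRing.map_maximalIdeal_of_surjective _ Ideal.Quotient.mk_surjective
    have hfp : Module.FinitePresentation S M := Module.finitePresentation_of_finite S M
    refine (Module.free_quotSMulTop_iff_free S M (x := r) ?_ hreg.1).mp hfree
    rw [IsLocalRing.jacobson_eq_maximalIdeal _ bot_ne_top]
    exact hr

end P190
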