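import Vale.Agent.P190.PSeries

/-!
Koszul exactness for families of matrices, and the reductions to one variable.
-/

namespace P190

open MvPowerSeries

universe u

section Koszul

variable {n : ℕ} {A : Type u} [CommRing A] [IsDomain A]

lemma X_ne_zero' (i : Fin n) : (X i : MvPowerSeries (Fin n) A) ≠ 0 := by
  intro h
  have := congrArg (coeff (Finsupp.single i 1)) h
  rw [coeff_X, if_pos rfl, map_zero] at this
  exact one_ne_zero this

lemma koszul_entry {i0 i1 i2 : Fin n} (h01 : i0 ≠ i1) (h02 : i0 ≠ i2) (h12 : i1 ≠ i2)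
    (P : Fin n → Fin n → MvPowerSeries (Fin n) A)
    (hP : ∀ j k, X i0 * P j k = X j * P i0 k - X k * P i0 j) :
    ∃ x : Fin n → MvPowerSeries (Fin n) A, ∀ j k, P j k = X j * x k - X k * x j := by
  have hX0 : (X i0 : MvPowerSeries (Fin n) A) ≠ 0 := X_ne_zero' i0
  have h1 : P i0 i1 ∈ Ideal.span ((fun i => (X i : MvPowerSeries (Fin n) A)) ''
      (({i0, i1} : Finset (Fin n)) : Set (Fin n))) := by
    refine X_mul_mem_span {i0, i1} (i := i2) (by simp [h02.symm, h12.symm]) ?_
    have : X i2 * P i0 i1 = X i1 * P i0 i2 - X i0 * P i1 i2 := by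
      rw [hP i1 i2]; ring
    rw [this]
    refine sub_mem ?_ ?_
    · exact Ideal.mul_mem_right _ _ (Ideal.subset_span ⟨i1, by simp, rfl⟩)
    · exact Ideal.mul_mem_right _ _ (Ideal.subset_span ⟨i0, by simp, rfl⟩)
  have h2 : ∃ u w, P i0 i1 = X i0 * u + X i1 * w := by
    have himg : ((fun i => (X i : MvPowerSeries (Fin n) A)) ''
      (({i0, i1} : Finset (Fin n)) : Set (Fin n))) = {X i0, X i1} := by
      simp [Set.image_pair]
    rw [himg, Ideal.mem_span_pair] at h1
    obtain ⟨u, w, h⟩ := h1
    exact ⟨u, w, by rw [← h]; ring⟩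
  obtain ⟨u, w, huw⟩ := h2
  have h3 : ∀ j, ∃ v, P i0 j = X j * w + X i0 * v := by
    intro j
    have hmem : P i0 j - X j * w ∈ Ideal.span ((fun i => (X i : MvPowerSeries (Fin n) A)) ''
        (({i0} : Finset (Fin n)) : Set (Fin n))) := by
      refine X_mul_mem_span {i0} (i := i1) (by simp [h01.symm]) ?_
      have : X i1 * (P i0 j - X j * w) = X i0 * (P i1 j + X j * u) := by
        have := hP i1 j
        rw [huw] at this
        linear_combination (-1 : MvPowerSeries (Fin n) A) * this
      rw [this]
      exact Ideal.mul_mem_right _ _ (Ideal.subset_span ⟨i0, by simp, rfl⟩)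
    have himg : ((fun i => (X i : MvPowerSeries (Fin n) A)) ''
      (({i0} : Finset (Fin n)) : Set (Fin n))) = {X i0} := by
      simp
    rw [himg, Ideal.mem_span_singleton'] at hmem
    obtain ⟨v, hv⟩ := hmem
    exact ⟨v, by linear_combination (-1 : MvPowerSeries (Fin n) A) * hv⟩
  choose v hv using h3
  have h00 : P i0 i0 = 0 := by
    have := hP i0 i0
    rw [sub_self] at this
    exact (mul_eq_zero.mp this).resolve_left hX0
  have hv0 : v i0 = -w := by
    have := hv i0
    rw [h00] at this
    have h : X i0 * (w + v i0) = 0 := by rw [mul_add]; exact this.symm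
    have := (mul_eq_zero.mp h).resolve_left hX0
    linear_combination this
  refine ⟨v, fun j k => ?_⟩
  have := hP j k
  rw [hv k, hv j] at this
  apply mul_left_cancel₀ hX0
  rw [this]
  ring

/-- Koszul exactness for families of matrices. -/
lemma koszul_matrix {ι : Type*} (h3 : 3 ≤ n) (a0 : Fin n) (h0 : a0.val = 0)
    (P : Fin n → Fin n → Matrix ι ι (MvPowerSeries (Fin n) A))
    (hP : ∀ j k, (X a0 : MvPowerSeries (Fin n) A) • P j k =
      (X j : MvPowerSeries (Fin n) A) • P a0 k - (X k : MvPowerSeries (Fin n) A) • P a0 j) :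
    ∃ Y : Fin n → Matrix ι ι (MvPowerSeries (Fin n) A), ∀ j k,
      P j k = (X j : MvPowerSeries (Fin n) A) • Y k - (X k : MvPowerSeries (Fin n) A) • Y j := by
  have key : ∀ r c : ι, ∃ x : Fin n → MvPowerSeries (Fin n) A,
      ∀ j k, P j k r c = X j * x k - X k * x j := by
    intro r c
    refine koszul_entry (i0 := a0) (i1 := ⟨1, by omega⟩) (i2 := ⟨2, by omega⟩) ?_ ?_ ?_
      (fun j k => P j k r c) ?_
    · intro h; rw [h] at h0; simp at h0
    · intro h; rw [h] at h0; simp at h0
    · simp
    · intro j k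
      have := congrFun (congrFun (hP j k) r) c
      simpa using this
  choose x hx using key
  refine ⟨fun j => Matrix.of fun r c => x r c j, fun j k => ?_⟩
  ext r c : 2
  simp [hx r c j k]

end Koszul

section OneVar

variable {σ : Type} [DecidableEq σ] {A : Type u} [CommRing A]

/-- Restriction to the axis of the variable `k`. -/
noncomputable def axis (k : σ) : MvPowerSeries σ A →+* PowerSeries A where
  toFun f := PowerSeries.mk fun m => coeff (Finsupp.single k m) f
  map_one' := by
    ext m
    rw [PowerSeries.coeff_mk, coeff_one, PowerSeries.coeff_one]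
    simp
  map_zero' := by
    ext m
    simp
  map_add' f g := by
    ext m
    simp
  map_mul' f g := by
    ext m
    rw [PowerSeries.coeff_mk, coeff_mul, PowerSeries.coeff_mul, Finsupp.antidiagonal_single,
      Finset.sum_map]
    simp

lemma coeff_axis (k : σ) (f : MvPowerSeries σ A) (m : ℕ) :
    PowerSeries.coeff m (axis k f) = coeff (Finsupp.single k m) f := by
  simp [axis]

lemma axis_X_self (k : σ) : axis k (X k : MvPowerSeries σ A) = PowerSeries.X := by
  ext m
  rw [coeff_axis, coeff_X, PowerSeries.coeff_X]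
  simp [Finsupp.single_eq_single_iff]

lemma axis_X_ne {k j : σ} (h : j ≠ k) : axis k (X j : MvPowerSeries σ A) = 0 := by
  ext m
  rw [coeff_axis, coeff_X, map_zero, if_neg]
  rw [Finsupp.single_eq_single_iff]
  rintro (⟨rfl, -⟩ | ⟨-, h1⟩)
  · exact h rfl
  · exact one_ne_zero h1

lemma axis_C (k : σ) (c : A) : axis k (C c : MvPowerSeries σ A) = PowerSeries.C c := by
  ext m
  rw [coeff_axis, coeff_C, PowerSeries.coeff_C]
  simp

lemma constantCoeff_axis (k : σ) (f : MvPowerSeries σ A) :
    PowerSeries.constantCoeff (axis k f) = constantCoeff f := by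
  rw [← PowerSeries.coeff_zero_eq_constantCoeff_apply, coeff_axis, Finsupp.single_zero,
    coeff_zero_eq_constantCoeff_apply]

end OneVar

end P190
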