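import Mathlib

/-!
Representations of a purely inseparable field extension given by monomial basis.
-/

namespace P190

universe u v

variable {n q : ℕ} {k K : Type u} [Field k] [Field K] [Algebra k K]

/-- the universal property of the extension with the monomial basis -/
lemma exists_algHom (hq : 0 < q) (x : Fin n → K) (c : Fin n → k)
    (hx : ∀ j, x j ^ q = algebraMap k K (c j))
    (b : Module.Basis (Fin n → Fin q) k K) (hb : ∀ e, b e = ∏ j, x j ^ (e j).val)
    {B : Type v} [CommRing B] [Algebra k B] (y : Fin n → B)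
    (hy : ∀ j, y j ^ q = algebraMap k B (c j)) : Nonempty (K →ₐ[k] B) := by
  let φ : K →ₗ[k] B := b.constr k fun e => ∏ j, y j ^ (e j).val
  have hφb : ∀ e, φ (b e) = ∏ j, y j ^ (e j).val := fun e => b.constr_basis k _ e
  have hφ : ∀ m : Fin n → ℕ, φ (∏ j, x j ^ m j) = ∏ j, y j ^ m j := by
    intro m
    let e : Fin n → Fin q := fun j => ⟨m j % q, Nat.mod_lt _ hq⟩
    have h1 : ∏ j, x j ^ m j = (∏ j, c j ^ (m j / q)) • b e := by
      rw [hb, Algebra.smul_def, map_prod, ← Finset.prod_mul_distrib]
      refine Finset.prod_congr rfl fun j _ => ?_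
      rw [map_pow, ← hx, ← pow_mul, ← pow_add, Nat.div_add_mod]
    have h2 : ∏ j, y j ^ m j = (∏ j, c j ^ (m j / q)) • ∏ j, y j ^ (e j).val := by
      rw [Algebra.smul_def, map_prod, ← Finset.prod_mul_distrib]
      refine Finset.prod_congr rfl fun j _ => ?_
      rw [map_pow, ← hy, ← pow_mul, ← pow_add, Nat.div_add_mod]
    rw [h1, map_smul, hφb, h2]
  have hmul : ∀ u v, φ (u * v) = φ u * φ v := by
    have : (LinearMap.mul k K).compr₂ φ = (LinearMap.mul k B).compl₁₂ φ φ := by
      refine b.ext fun e => b.ext fun e' => ?_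
      simp only [LinearMap.compr₂_apply, LinearMap.mul_apply', LinearMap.compl₁₂_apply]
      rw [hb, hb, ← Finset.prod_mul_distrib, hφ, hφ]
      simp_rw [← pow_add]
      rw [hφ, ← Finset.prod_mul_distrib]
      simp_rw [← pow_add]
    intro u v
    exact LinearMap.congr_fun₂ this u v
  have hone : φ 1 = 1 := by
    have := hφ (fun _ => 0)
    simpa using this
  exact ⟨AlgHom.ofLinearMap φ hone hmul⟩

/-- divisibility of dimensions -/
lemma dvd_card (hq : 0 < q) (x : Fin n → K) (c : Fin n → k)
    (hx : ∀ j, x j ^ q = algebraMap k K (c j))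
    (b : Module.Basis (Fin n → Fin q) k K) (hb : ∀ e, b e = ∏ j, x j ^ (e j).val)
    {ι : Type*} [Fintype ι] [DecidableEq ι] (Y : Fin n → Matrix ι ι k)
    (hcomm : ∀ i j, Y i * Y j = Y j * Y i)
    (hY : ∀ j, Y j ^ q = c j • (1 : Matrix ι ι k)) : q ^ n ∣ Fintype.card ι := by
  let Z : Fin n → Module.End k (ι → k) := fun j => Matrix.toLinAlgEquiv' (Y j)
  have hZcomm : ∀ i j, Z i * Z j = Z j * Z i := by
    intro i j
    simp only [Z, ← map_mul, hcomm i j]
  have hZ : ∀ j, Z j ^ q = algebraMap k (Module.End k (ι → k)) (c j) := by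
    intro j
    simp only [Z, ← map_pow, hY j, map_smul, map_one, Algebra.algebraMap_eq_smul_one]
  let B := Algebra.adjoin k (Set.range Z)
  have hB : IsMulCommutative B := Algebra.isMulCommutative_adjoin k (by
    rintro _ ⟨i, rfl⟩ _ ⟨j, rfl⟩
    exact hZcomm i j)
  let y : Fin n → B := fun j => ⟨Z j, Algebra.subset_adjoin ⟨j, rfl⟩⟩
  have hy : ∀ j, y j ^ q = algebraMap k B (c j) := by
    intro j
    apply Subtype.ext
    exact hZ j
  let _ : CommRing B := { (inferInstance : Ring B) with mul_comm := mul_comm' }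
  obtain ⟨φ⟩ := exists_algHom hq x c hx b hb (B := B) y hy
  let ψ : K →ₐ[k] Module.End k (ι → k) := B.val.comp φ
  let _ : Module K (ι → k) := Module.compHom (ι → k) ψ.toRingHom
  have htower : IsScalarTower k K (ι → k) := by
    constructor
    intro a u v
    change ψ (a • u) v = a • ψ u v
    rw [map_smul]
    rfl
  have := Module.finrank_mul_finrank k K (ι → k)
  rw [Module.finrank_eq_card_basis b, Module.finrank_pi, Fintype.card_fun, Fintype.card_fin,
    Fintype.card_fin] at this
  exact ⟨_, this.symm⟩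

end P190
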