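import Vale.Agent.P190.Koszul

/-!
Matrices over the residue field.
-/

namespace P190

open MvPowerSeries

universe u

variable {n : ℕ} {k : Type u} [Field k]

lemma matrix_cancel {ι : Type*} {y z : Matrix ι ι (PowerSeries k)} {m : ℕ}
    (h : (PowerSeries.X ^ m : PowerSeries k) • y = (PowerSeries.X ^ m : PowerSeries k) • z) :
    y = z := by
  refine Matrix.ext fun r c => ?_
  have := congrFun (congrFun h r) c
  simp only [Matrix.smul_apply, smul_eq_mul] at this
  exact mul_left_cancel₀ (pow_ne_zero m PowerSeries.X_ne_zero) this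

/-- Reduction of the commuting family of matrices to the residue field. -/
lemma residue_matrices {ι : Type*} [Fintype ι] [DecidableEq ι] (h3 : 3 ≤ n) (q : ℕ) (hq0 : q ≠ 0)
    (a0 : Fin n) (h0 : a0.val = 0) (c : Fin n → k)
    (P : Fin n → Fin n → Matrix ι ι (MvPowerSeries (Fin n) k))
    (hcomm : ∀ i j i' j', P i j * P i' j' = P i' j' * P i j)
    (hP : ∀ j l, (X a0 : MvPowerSeries (Fin n) k) • P j l =
      (X j : MvPowerSeries (Fin n) k) • P a0 l - (X l : MvPowerSeries (Fin n) k) • P a0 j)
    (hq : ∀ j l, P j l ^ q = (X j ^ q * C (c l) - X l ^ q * C (c j) : MvPowerSeries (Fin n) k) •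
      (1 : Matrix ι ι (MvPowerSeries (Fin n) k))) :
    ∃ Y : Fin n → Matrix ι ι k, (∀ i j, Y i * Y j = Y j * Y i) ∧
      ∀ j, Y j ^ q = c j • (1 : Matrix ι ι k) := by
  obtain ⟨Y, hY⟩ := koszul_matrix h3 a0 h0 P hP
  -- the reductions along the axes
  have haxis : ∀ l j, j ≠ l → (axis l).mapMatrix (P l j) =
      (PowerSeries.X : PowerSeries k) • (axis l).mapMatrix (Y j) := by
    intro l j hjl
    rw [hY l j]
    ext r s : 2
    simp [axis_X_self, axis_X_ne hjl]
  have hres : ∀ l (M : Matrix ι ι (MvPowerSeries (Fin n) k)),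
      (PowerSeries.constantCoeff (R := k)).mapMatrix ((axis l).mapMatrix M) =
        (constantCoeff (σ := Fin n) (R := k)).mapMatrix M := by
    intro l M
    ext r s
    simp [constantCoeff_axis]
  refine ⟨fun j => (constantCoeff (σ := Fin n) (R := k)).mapMatrix (Y j), ?_, ?_⟩
  · intro i j
    obtain ⟨l, hli, hlj⟩ : ∃ l : Fin n, i ≠ l ∧ j ≠ l := by
      have : ∃ l : Fin n, l ∉ ({i, j} : Finset (Fin n)) := by
        by_contra hcon
        push Not at hcon
        have h1 : (Finset.univ : Finset (Fin n)) ⊆ {i, j} := fun l _ => hcon l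
        have h2 := Finset.card_le_card h1
        have h3' := Finset.card_le_two (a := i) (b := j)
        rw [Finset.card_univ, Fintype.card_fin] at h2
        omega
      obtain ⟨l, hl⟩ := this
      simp only [Finset.mem_insert, Finset.mem_singleton, not_or] at hl
      exact ⟨l, Ne.symm hl.1, Ne.symm hl.2⟩
    have h1 := congrArg (axis l).mapMatrix (hcomm l i l j)
    rw [map_mul, map_mul, haxis l i hli, haxis l j hlj] at h1
    have h2 : (axis l).mapMatrix (Y i) * (axis l).mapMatrix (Y j) =
        (axis l).mapMatrix (Y j) * (axis l).mapMatrix (Y i) := by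
      apply matrix_cancel (m := 2)
      simp only [Matrix.smul_mul, Matrix.mul_smul, smul_smul, ← pow_two] at h1
      exact h1
    have h4 := congrArg (PowerSeries.constantCoeff (R := k)).mapMatrix h2
    rw [map_mul, map_mul, hres, hres] at h4
    exact h4
  · intro j
    obtain ⟨l, hl⟩ : ∃ l : Fin n, j ≠ l := by
      by_cases h : j = a0
      · refine ⟨⟨1, by omega⟩, ?_⟩
        intro h'
        rw [← h, h'] at h0
        simp at h0
      · exact ⟨a0, h⟩
    have h1 := congrArg (axis l).mapMatrix (hq l j)
    rw [map_pow, haxis l j hl] at h1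
    have h2 : (axis l).mapMatrix (Y j) ^ q = (PowerSeries.C (c j)) •
        (1 : Matrix ι ι (PowerSeries k)) := by
      apply matrix_cancel (m := q)
      rw [smul_pow] at h1
      rw [h1]
      refine Matrix.ext fun r s => ?_
      by_cases hrs : r = s
      · subst hrs
        simp [axis_X_self, axis_X_ne hl, axis_C, hq0]
      · simp [Matrix.one_apply_ne hrs]
    have h4 := congrArg (PowerSeries.constantCoeff (R := k)).mapMatrix h2
    rw [map_pow, hres] at h4
    rw [h4]
    refine Matrix.ext fun r s => ?_
    by_cases hrs : r = s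
    · subst hrs
      simp
    · simp [Matrix.one_apply_ne hrs]

end P190
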