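import Mathlib

/-!
Power series rings over integrally closed Noetherian domains are integrally closed.
-/

namespace P190

open nonZeroDivisors

universe u

section PS

variable {A : Type u} [CommRing A]

/-- divide by powers of X -/
lemma mem_range_of_X_pow_mul {w : PowerSeries (FractionRing A)} {n : ℕ}
    (h : PowerSeries.X ^ n * w ∈
      (algebraMap (PowerSeries A) (PowerSeries (FractionRing A))).range) :
    w ∈ (algebraMap (PowerSeries A) (PowerSeries (FractionRing A))).range := by
  obtain ⟨b, hb⟩ := h
  refine ⟨PowerSeries.mk fun m => PowerSeries.coeff (m + n) b, ?_⟩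
  ext m
  have := congrArg (PowerSeries.coeff (m + n)) hb
  rw [PowerSeries.algebraMap_apply'', PowerSeries.coeff_map, PowerSeries.coeff_X_pow_mul] at this
  rw [PowerSeries.algebraMap_apply'', PowerSeries.coeff_map, PowerSeries.coeff_mk, this]

variable [IsDomain A]

lemma algebraMap_PS_injective :
    Function.Injective (algebraMap (PowerSeries A) (PowerSeries (FractionRing A))) := by
  intro f g h
  ext m
  have := congrArg (PowerSeries.coeff m) h
  rw [PowerSeries.algebraMap_apply'', PowerSeries.algebraMap_apply'', PowerSeries.coeff_map,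
    PowerSeries.coeff_map] at this
  exact IsFractionRing.injective A (FractionRing A) this

/-- factoring out the order -/
lemma exists_eq_X_pow_mul {d : PowerSeries A} (hd : d ≠ 0) :
    ∃ (m : ℕ) (d' : PowerSeries A), d = PowerSeries.X ^ m * d' ∧
      PowerSeries.constantCoeff d' ≠ 0 := by
  classical
  have hex : ∃ m, PowerSeries.coeff m d ≠ 0 := by
    by_contra hcon
    push Not at hcon
    exact hd (PowerSeries.ext (by simpa using hcon))
  refine ⟨Nat.find hex, PowerSeries.mk fun i => PowerSeries.coeff (i + Nat.find hex) d, ?_, ?_⟩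
  · ext i
    rw [PowerSeries.coeff_X_pow_mul']
    split_ifs with h
    · rw [PowerSeries.coeff_mk, Nat.sub_add_cancel h]
    · have := Nat.find_min hex (not_le.mp h)
      simpa using this
  · rw [← PowerSeries.coeff_zero_eq_constantCoeff_apply, PowerSeries.coeff_mk, zero_add]
    exact Nat.find_spec hex

lemma const_almostIntegral {w : PowerSeries (FractionRing A)}
    (hw : IsAlmostIntegral (PowerSeries A) w) :
    IsAlmostIntegral A (PowerSeries.constantCoeff w) := by
  obtain ⟨d, hd, h⟩ := hw
  obtain ⟨m, d', hdd, hd'⟩ := exists_eq_X_pow_mul (nonZeroDivisors.ne_zero hd)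
  refine ⟨PowerSeries.constantCoeff d', mem_nonZeroDivisors_of_ne_zero hd', fun n => ?_⟩
  have h1 := h n
  have hX : algebraMap (PowerSeries A) (PowerSeries (FractionRing A)) PowerSeries.X =
      PowerSeries.X := by
    rw [PowerSeries.algebraMap_apply'', PowerSeries.map_X]
  rw [hdd, Algebra.smul_def, map_mul, map_pow, hX, mul_assoc] at h1
  obtain ⟨b, hb⟩ := mem_range_of_X_pow_mul h1
  refine ⟨PowerSeries.constantCoeff b, ?_⟩
  have hcm : ∀ g : PowerSeries A, PowerSeries.constantCoeff
      (algebraMap (PowerSeries A) (PowerSeries (FractionRing A)) g) =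
        algebraMap A (FractionRing A) (PowerSeries.constantCoeff g) := by
    intro g
    rw [PowerSeries.algebraMap_apply'', ← PowerSeries.coeff_zero_eq_constantCoeff_apply,
      PowerSeries.coeff_map, PowerSeries.coeff_zero_eq_constantCoeff_apply]
  have := congrArg PowerSeries.constantCoeff hb
  rw [hcm, map_mul, map_pow, hcm] at this
  rw [this, Algebra.smul_def]

variable [IsNoetherianRing A] [IsIntegrallyClosed A]

lemma coeff_mem_of_almostIntegral (m : ℕ) : ∀ {w : PowerSeries (FractionRing A)},
    IsAlmostIntegral (PowerSeries A) w →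
    PowerSeries.coeff m w ∈ (algebraMap A (FractionRing A)).range := by
  induction m with
  | zero =>
    intro w hw
    rw [PowerSeries.coeff_zero_eq_constantCoeff_apply]
    obtain ⟨y, hy⟩ := IsIntegrallyClosed.isIntegral_iff.mp (const_almostIntegral hw).isIntegral
    exact ⟨y, hy⟩
  | succ m ih =>
    intro w hw
    obtain ⟨y, hy⟩ := IsIntegrallyClosed.isIntegral_iff.mp (const_almostIntegral hw).isIntegral
    -- subtract the constant coefficient
    let w' : PowerSeries (FractionRing A) := PowerSeries.mk fun i => PowerSeries.coeff (i + 1) w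
    have hww' : w - algebraMap (PowerSeries A) (PowerSeries (FractionRing A)) (PowerSeries.C y) =
        PowerSeries.X * w' := by
      ext i
      rw [map_sub, PowerSeries.algebraMap_apply'', PowerSeries.map_C, hy]
      cases i with
      | zero => simp
      | succ i => simp [w', PowerSeries.coeff_succ_X_mul, PowerSeries.coeff_C]
    have hw' : IsAlmostIntegral (PowerSeries A) w' := by
      have h1 : w - algebraMap (PowerSeries A) (PowerSeries (FractionRing A)) (PowerSeries.C y) ∈
          completeIntegralClosure (PowerSeries A) (PowerSeries (FractionRing A)) :=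
        sub_mem hw (Subalgebra.algebraMap_mem _ _)
      rw [hww'] at h1
      obtain ⟨d, hd, h⟩ := h1
      refine ⟨d, hd, fun n => ?_⟩
      have h2 := h n
      rw [mul_pow, Algebra.smul_def, mul_left_comm] at h2
      have h3 := mem_range_of_X_pow_mul h2
      rwa [Algebra.smul_def]
    have := ih hw'
    simpa [w'] using this

lemma mem_range_of_almostIntegral {w : PowerSeries (FractionRing A)}
    (hw : IsAlmostIntegral (PowerSeries A) w) :
    ∃ b, algebraMap (PowerSeries A) (PowerSeries (FractionRing A)) b = w := by
  choose c hc using fun m => coeff_mem_of_almostIntegral (A := A) m hw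
  refine ⟨PowerSeries.mk c, ?_⟩
  ext m
  rw [PowerSeries.algebraMap_apply'', PowerSeries.coeff_map, PowerSeries.coeff_mk, hc]

instance isIntegrallyClosed_powerSeries : IsIntegrallyClosed (PowerSeries A) := by
  rw [isIntegrallyClosed_iff (FractionRing (PowerSeries A))]
  intro z hz
  have hz' : IsAlmostIntegral (PowerSeries A) z := hz.isAlmostIntegral
  -- map to the fraction field of `L[[X]]`
  let φ : FractionRing (PowerSeries A) →+* FractionRing (PowerSeries (FractionRing A)) :=
    IsFractionRing.map (A := PowerSeries A) (B := PowerSeries (FractionRing A))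
      (K := FractionRing (PowerSeries A)) (L := FractionRing (PowerSeries (FractionRing A)))
      (j := algebraMap (PowerSeries A) (PowerSeries (FractionRing A))) algebraMap_PS_injective
  have hφ : ∀ w : PowerSeries A, φ (algebraMap _ _ w) =
      algebraMap (PowerSeries (FractionRing A)) (FractionRing (PowerSeries (FractionRing A)))
        (algebraMap _ _ w) := by
    intro w
    simp [φ, IsFractionRing.map]
  have hint : IsIntegral (PowerSeries (FractionRing A)) (φ z) := by
    refine IsIntegral.map_of_comp_eq
      (algebraMap (PowerSeries A) (PowerSeries (FractionRing A))) φ ?_ hz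
    ext w
    exact (hφ w).symm
  obtain ⟨w, hw⟩ := IsIntegrallyClosed.isIntegral_iff.mp hint
  have hwai : IsAlmostIntegral (PowerSeries A) w := by
    obtain ⟨d, hd, h⟩ := hz'
    refine ⟨d, hd, fun n => ?_⟩
    obtain ⟨b, hb⟩ := h n
    refine ⟨b, ?_⟩
    apply IsFractionRing.injective (PowerSeries (FractionRing A))
      (FractionRing (PowerSeries (FractionRing A)))
    rw [← hφ, hb, Algebra.smul_def, Algebra.smul_def, map_mul, map_mul, hφ, map_pow, map_pow, hw]
  obtain ⟨b, hb⟩ := mem_range_of_almostIntegral hwai
  refine ⟨b, ?_⟩
  apply φ.injective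
  rw [hφ, hb, hw]

end PS

section Mv

lemma isIntegrallyClosed_mvPowerSeries (k : Type) [Field k] (n : ℕ) :
    IsIntegrallyClosed (MvPowerSeries (Fin n) k) := by
  induction n with
  | zero =>
    exact IsIntegrallyClosed.of_equiv (MvPowerSeries.isEmptyEquiv (σ := Fin 0) (R := k)).symm.toRingEquiv
  | succ n ih =>
    have : IsDomain (MvPowerSeries (Fin n) k) := NoZeroDivisors.to_isDomain _
    exact IsIntegrallyClosed.of_equiv (MvPowerSeries.finSuccEquiv k n).symm.toRingEquiv

end Mv

end P190
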