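import Vale.Agent.P190.PSeries

/-!
The power series ring over a finite field extension as a free module.
-/

namespace P190

open MvPowerSeries

variable {n : ℕ} {k K : Type} [Field k] [Field K] [Algebra k K]

lemma coeff_smul_C (s : MvPowerSeries (Fin n) k) (u : K) (m : Fin n →₀ ℕ) :
    coeff m (s • (C u : MvPowerSeries (Fin n) K)) = coeff m s • u := by
  rw [Algebra.smul_def, MvPowerSeries.algebraMap_apply'', coeff_mul_C, coeff_map,
    Algebra.smul_def]

/-- The map sending coordinates to a power series -/
noncomputable def coordMap {ι : Type} [Fintype ι] (b : Module.Basis ι k K) :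
    (ι → MvPowerSeries (Fin n) k) →ₗ[MvPowerSeries (Fin n) k] MvPowerSeries (Fin n) K :=
  Fintype.linearCombination (MvPowerSeries (Fin n) k) (fun i => (C (b i) : MvPowerSeries (Fin n) K))

lemma coeff_coordMap {ι : Type} [Fintype ι] (b : Module.Basis ι k K)
    (g : ι → MvPowerSeries (Fin n) k) (m : Fin n →₀ ℕ) :
    coeff m (coordMap b g) = ∑ i, coeff m (g i) • b i := by
  rw [coordMap, Fintype.linearCombination_apply, map_sum]
  exact Finset.sum_congr rfl fun i _ => coeff_smul_C _ _ _

lemma coordMap_bijective {ι : Type} [Fintype ι] (b : Module.Basis ι k K) :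
    Function.Bijective (coordMap (n := n) b) := by
  constructor
  · rw [← LinearMap.ker_eq_bot, LinearMap.ker_eq_bot']
    intro g hg
    funext i
    ext m
    have h1 := coeff_coordMap b g m
    rw [hg, map_zero] at h1
    have h2 := (Fintype.linearIndependent_iff.mp b.linearIndependent) _ h1.symm i
    rw [h2]
    simp
  · intro f
    let g : ι → MvPowerSeries (Fin n) k := fun i => fun m => b.repr (coeff m f) i
    have hg : ∀ i m, coeff m (g i) = b.repr (coeff m f) i := fun i m => rfl
    refine ⟨g, ?_⟩
    ext m
    rw [coeff_coordMap]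
    simp_rw [hg]
    exact b.sum_repr (coeff m f)

/-- the induced basis -/
noncomputable def pBasis {ι : Type} [Fintype ι] (b : Module.Basis ι k K) :
    Module.Basis ι (MvPowerSeries (Fin n) k) (MvPowerSeries (Fin n) K) :=
  Module.Basis.ofEquivFun (LinearEquiv.ofBijective (coordMap b) (coordMap_bijective b)).symm

lemma pBasis_apply {ι : Type} [Fintype ι] (b : Module.Basis ι k K) (i : ι) :
    pBasis (n := n) b i = C (b i) := by
  classical
  rw [pBasis, Module.Basis.coe_ofEquivFun]
  simp [coordMap, Fintype.linearCombination_apply, Pi.single_apply]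

lemma algebraMap_injective_P :
    Function.Injective (algebraMap (MvPowerSeries (Fin n) k) (MvPowerSeries (Fin n) K)) := by
  intro f g h
  ext m
  have := congrArg (coeff m) h
  rw [MvPowerSeries.algebraMap_apply'', MvPowerSeries.algebraMap_apply'', coeff_map,
    coeff_map] at this
  exact (algebraMap k K).injective this

/-- powers -/
lemma exists_pow_eq {ι : Type} [Fintype ι] (b : Module.Basis ι k K) (p : ℕ) [Fact p.Prime]
    [CharP K p] (s : ℕ) (hK : ∀ u : K, ∃ v : k, algebraMap k K v = u ^ (p ^ s))
    (f : MvPowerSeries (Fin n) K) :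
    ∃ g : MvPowerSeries (Fin n) k, algebraMap _ (MvPowerSeries (Fin n) K) g = f ^ (p ^ s) := by
  have hchar : CharP (MvPowerSeries (Fin n) K) p :=
    charP_of_injective_ringHom (MvPowerSeries.C_injective (σ := Fin n) (R := K)) p
  have hexp : ExpChar (MvPowerSeries (Fin n) K) p := inferInstance
  rw [← (pBasis b).sum_repr f, sum_pow_char_pow]
  choose v hv using hK
  refine ⟨∑ i, ((pBasis b).repr f i) ^ (p ^ s) * C (v (b i)), ?_⟩
  rw [map_sum]
  refine Finset.sum_congr rfl fun i _ => ?_
  rw [map_mul, map_pow, Algebra.smul_def, mul_pow, pBasis_apply]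
  congr 1
  rw [MvPowerSeries.algebraMap_apply'', map_C, hv, map_pow]

end P190
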