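import Vale.Agent.P190.Rank

/-!
Saturation of a subalgebra and algebras generated by elements with powers in the base.
-/

namespace P190

universe u v

section Sat

variable {S : Type u} {P : Type v} [CommRing S] [IsDomain S] [CommRing P] [Algebra S P]

/-- The elements having a nonzero multiple in the subalgebra. -/
def satur (T : Subalgebra S P) : Subalgebra S P where
  carrier := {f | ∃ s : S, s ≠ 0 ∧ s • f ∈ T}
  mul_mem' := by
    rintro f g ⟨s, hs, hsf⟩ ⟨t, ht, htg⟩
    refine ⟨s * t, mul_ne_zero hs ht, ?_⟩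
    rw [← smul_mul_smul_comm]
    exact T.mul_mem hsf htg
  add_mem' := by
    rintro f g ⟨s, hs, hsf⟩ ⟨t, ht, htg⟩
    refine ⟨s * t, mul_ne_zero hs ht, ?_⟩
    rw [smul_add]
    refine T.add_mem ?_ ?_
    · rw [mul_comm, mul_smul]
      exact T.smul_mem hsf t
    · rw [mul_smul]
      exact T.smul_mem htg s
  algebraMap_mem' r := ⟨1, one_ne_zero, by rw [one_smul]; exact T.algebraMap_mem r⟩

lemma mem_satur {T : Subalgebra S P} {f : P} : f ∈ satur T ↔ ∃ s : S, s ≠ 0 ∧ s • f ∈ T :=
  Iff.rfl

lemma le_satur (T : Subalgebra S P) : T ≤ satur T := fun f hf =>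
  ⟨1, one_ne_zero, by rwa [one_smul]⟩

lemma satur_satur {T : Subalgebra S P} {f : P} (h : ∃ s : S, s ≠ 0 ∧ s • f ∈ satur T) :
    f ∈ satur T := by
  obtain ⟨s, hs, t, ht, htf⟩ := h
  exact ⟨t * s, mul_ne_zero ht hs, by rwa [mul_smul]⟩

end Sat

section Adjoin

variable {S : Type u} {P : Type v} [CommRing S] [CommRing P] [Algebra S P]

/-- algebras generated by elements whose `q`-th powers lie in the base are spanned by
monomials. -/
lemma mem_span_of_mem_adjoin {ι : Type*} [Fintype ι] {q : ℕ} (hq : 0 < q) (y : ι → P) (c : ι → S)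
    (hc : ∀ i, y i ^ q = algebraMap S P (c i)) {f : P}
    (hf : f ∈ Algebra.adjoin S (Set.range y)) :
    f ∈ Submodule.span S (Set.range fun e : ι → Fin q => ∏ i, y i ^ (e i).val) := by
  rw [Algebra.adjoin_range_eq_range_aeval] at hf
  obtain ⟨g, rfl⟩ := hf
  change MvPolynomial.aeval y g ∈ _
  induction g using MvPolynomial.induction_on' with
  | monomial m a =>
    have : MvPolynomial.aeval y (MvPolynomial.monomial m a) =
        (a * ∏ i, c i ^ (m i / q)) •
          ∏ i, y i ^ ((⟨m i % q, Nat.mod_lt _ hq⟩ : Fin q) : ℕ) := by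
      rw [MvPolynomial.aeval_monomial, Finsupp.prod_fintype _ _ (by simp), Algebra.smul_def,
        map_mul, mul_assoc, map_prod, ← Finset.prod_mul_distrib]
      congr 1
      refine Finset.prod_congr rfl fun i _ => ?_
      rw [map_pow, ← hc, ← pow_mul, ← pow_add, Nat.div_add_mod]
    rw [this]
    exact Submodule.smul_mem _ _ (Submodule.subset_span ⟨fun i => ⟨m i % q, Nat.mod_lt _ hq⟩, rfl⟩)
  | add f g hf hg =>
    rw [map_add]
    exact add_mem hf hg

end Adjoin

section AdjoinTop

variable {S : Type u} {P : Type v} [CommRing S] [IsDomain S] [CommRing P] [Algebra S P]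

/-- The elements having a nonzero multiple in a subring containing the base. -/
def saturRing (V : Subring P) (hV : ∀ s : S, algebraMap S P s ∈ V) : Subalgebra S P where
  carrier := {f | ∃ s : S, s ≠ 0 ∧ algebraMap S P s * f ∈ V}
  mul_mem' := by
    rintro f g ⟨s, hs, hsf⟩ ⟨t, ht, htg⟩
    refine ⟨s * t, mul_ne_zero hs ht, ?_⟩
    rw [map_mul, mul_mul_mul_comm]
    exact V.mul_mem hsf htg
  add_mem' := by
    rintro f g ⟨s, hs, hsf⟩ ⟨t, ht, htg⟩
    refine ⟨s * t, mul_ne_zero hs ht, ?_⟩
    rw [map_mul, mul_add]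
    refine V.add_mem ?_ ?_
    · rw [mul_comm (algebraMap S P s), mul_assoc]
      exact V.mul_mem (hV t) hsf
    · rw [mul_assoc]
      exact V.mul_mem (hV s) htg
  algebraMap_mem' r := ⟨1, one_ne_zero, by rw [map_one, one_mul]; exact hV r⟩

lemma satur_adjoin_top (R : Subalgebra S P) {J : Type*} (x : J → P) (a : J → S) (j0 : J)
    (ha0 : a j0 ≠ 0) (h : ∀ j, algebraMap S P (a j0) * x j - algebraMap S P (a j) * x j0 ∈ R)
    (hspan : Algebra.adjoin S (Set.range x) = ⊤) (f : P) :
    ∃ t : S, t ≠ 0 ∧ algebraMap S P t * f ∈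
      (Algebra.adjoin R (Set.range fun _ : Unit => x j0)).toSubring := by
  have hR : ∀ r ∈ R, r ∈ (Algebra.adjoin R (Set.range fun _ : Unit => x j0)).toSubring := by
    intro r hr
    exact Subalgebra.algebraMap_mem (Algebra.adjoin R (Set.range fun _ : Unit => x j0))
      (⟨r, hr⟩ : R)
  have h0 : x j0 ∈ (Algebra.adjoin R (Set.range fun _ : Unit => x j0)).toSubring :=
    Algebra.subset_adjoin ⟨(), rfl⟩
  have hS : ∀ s : S, algebraMap S P s ∈
      (Algebra.adjoin R (Set.range fun _ : Unit => x j0)).toSubring :=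
    fun s => hR _ (R.algebraMap_mem s)
  have hle : Algebra.adjoin S (Set.range x) ≤ saturRing _ hS := by
    refine Algebra.adjoin_le ?_
    rintro _ ⟨j, rfl⟩
    refine ⟨a j0, ha0, ?_⟩
    have h1 : algebraMap S P (a j0) * x j =
      (algebraMap S P (a j0) * x j - algebraMap S P (a j) * x j0) +
        algebraMap S P (a j) * x j0 := by ring
    rw [h1]
    exact Subring.add_mem _ (hR _ (h j)) (Subring.mul_mem _ (hS _) h0)
  rw [hspan] at hle
  exact hle trivial

variable [IsDomain P] [FaithfulSMul S P]

lemma finrank_le_of_adjoin_top (R : Subalgebra S P) {J : Type*} (x : J → P) (a : J → S) (j0 : J)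
    (ha0 : a j0 ≠ 0) (h : ∀ j, algebraMap S P (a j0) * x j - algebraMap S P (a j) * x j0 ∈ R)
    (hspan : Algebra.adjoin S (Set.range x) = ⊤) {q : ℕ} (hq : 0 < q) (c : S)
    (hc : x j0 ^ q = algebraMap S P c) :
    Module.finrank R P ≤ q := by
  have h := finrank_le_of_torsion (R := R) (M := P)
    (fun e : Unit → Fin q => ∏ i, x j0 ^ (e i).val) ?_
  · refine h.trans (le_of_eq ?_)
    simp
  · intro f
    obtain ⟨t, ht, htf⟩ := satur_adjoin_top R x a j0 ha0 h hspan f
    refine ⟨algebraMap S R t, ?_, ?_⟩
    · intro h0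
      apply ht
      apply FaithfulSMul.algebraMap_injective S P
      rw [map_zero]
      exact congrArg Subtype.val h0
    · exact mem_span_of_mem_adjoin (S := R) hq
        (fun _ : Unit => x j0) (fun _ : Unit => algebraMap S R c) (fun _ => hc) htf

end AdjoinTop

section Normal

variable {S : Type u} {P : Type v} [CommRing S] [IsDomain S] [CommRing P] [IsDomain P]
  [Algebra S P] [FaithfulSMul S P] [Algebra.IsIntegral S P]

/-- A saturated subalgebra of an integrally closed domain is integrally closed. -/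
lemma isIntegrallyClosed_satur [IsIntegrallyClosed P] (T : Subalgebra S P) :
    IsIntegrallyClosed (satur T) := by
  rw [isIntegrallyClosed_iff (FractionRing (satur T))]
  intro z hz
  obtain ⟨u, v, hv, rfl⟩ := IsFractionRing.div_surjective (A := satur T) z
  have hv0 : v ≠ 0 := nonZeroDivisors.ne_zero hv
  -- the map to the fraction field of P
  let φ : FractionRing (satur T) →+* FractionRing P :=
    IsFractionRing.map (A := satur T) (B := P) (K := FractionRing (satur T))
      (L := FractionRing P) (j := (satur T).val.toRingHom) Subtype.val_injective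
  have hφ : ∀ w : satur T, φ (algebraMap _ _ w) = algebraMap P (FractionRing P) (w : P) := by
    intro w
    simp [φ, IsFractionRing.map]
  have hint : IsIntegral P (algebraMap P (FractionRing P) (u : P) /
      algebraMap P (FractionRing P) (v : P)) := by
    rw [← hφ u, ← hφ v, ← map_div₀]
    refine IsIntegral.map_of_comp_eq (satur T).val.toRingHom φ ?_ hz
    ext w
    exact (hφ w).symm
  obtain ⟨f, hf⟩ := IsIntegrallyClosed.isIntegral_iff.mp hint
  have hvP : (v : P) ≠ 0 := fun h => hv0 (Subtype.ext h)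
  have hvP' : algebraMap P (FractionRing P) (v : P) ≠ 0 := by
    simpa using hvP
  have hfv : (v : P) * f = u := by
    apply IsFractionRing.injective P (FractionRing P)
    rw [map_mul, hf]
    field_simp
  have hfmem : f ∈ satur T := by
    have hint' : IsIntegral S v :=
      (isIntegral_algHom_iff (satur T).val Subtype.val_injective).mp
        (Algebra.IsIntegral.isIntegral (R := S) (v : P))
    obtain ⟨s, hs, v', hv'⟩ := hint'.isAlgebraic.exists_nonzero_dvd
      (mem_nonZeroDivisors_of_ne_zero hv0)
    apply satur_satur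
    refine ⟨s, hs, ?_⟩
    have h1 : algebraMap S P s = (v : P) * (v' : P) := congrArg Subtype.val hv'
    rw [Algebra.smul_def, h1, mul_right_comm, hfv]
    exact (satur T).mul_mem u.2 v'.2
  refine ⟨⟨f, hfmem⟩, ?_⟩
  have hv1 : algebraMap (satur T) (FractionRing (satur T)) v ≠ 0 := by
    simpa using hv0
  rw [eq_div_iff hv1, ← map_mul]
  congr 1
  apply Subtype.ext
  rw [← hfv, mul_comm]
  rfl

end Normal

end P190
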