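import Vale.Agent.P190.Field
import Vale.Agent.P190.PRing
import Vale.Agent.P190.Satur
import Vale.Agent.P190.Complete
import Vale.Agent.P190.Normal

/-!
The ring `R` and its properties.
-/

namespace P190

open MvPowerSeries IsLocalRing

variable (p : ℕ) [hp : Fact p.Prime] (s n : ℕ)

/-- the base power series ring -/
abbrev BaseS : Type := MvPowerSeries (Fin n) (SmallK p s n)

/-- the big power series ring -/
abbrev BigP : Type := MvPowerSeries (Fin n) (BigK p n)

/-- the two by two minors -/
noncomputable def pvar (j l : Fin n) : BigP p n :=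
  X j * C (xvar p n l) - X l * C (xvar p n j)

/-- the algebra generated by the minors involving the index `a0` -/
noncomputable def TAlg (a0 : Fin n) : Subalgebra (BaseS p s n) (BigP p n) :=
  Algebra.adjoin (BaseS p s n) (Set.range fun l : {l : Fin n // l ≠ a0} => pvar p n a0 l)

/-- the ring -/
noncomputable abbrev RAlg (a0 : Fin n) : Subalgebra (BaseS p s n) (BigP p n) :=
  satur (TAlg p s n a0)

variable {p s n}

lemma exists_cvar (u : BigK p n) :
    ∃ v : SmallK p s n, algebraMap (SmallK p s n) (BigK p n) v = u ^ (p ^ s) :=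
  ⟨⟨u ^ (p ^ s), pow_mem_SmallK p s n u⟩, rfl⟩

variable (p s) in
/-- the powers of the variables -/
noncomputable def cvar (j : Fin n) : SmallK p s n := ⟨xvar p n j ^ (p ^ s), pow_mem_SmallK p s n _⟩

lemma algebraMap_cvar (j : Fin n) :
    algebraMap (SmallK p s n) (BigK p n) (cvar p s j) = xvar p n j ^ (p ^ s) := rfl

instance : CharP (BigP p n) p :=
  charP_of_injective_ringHom (MvPowerSeries.C_injective (σ := Fin n) (R := BigK p n)) p

lemma algMap_X (j : Fin n) : algebraMap (BaseS p s n) (BigP p n) (X j) = X j := by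
  rw [MvPowerSeries.algebraMap_apply'', map_X]

lemma algMap_C (u : SmallK p s n) :
    algebraMap (BaseS p s n) (BigP p n) (C u) = C (algebraMap _ (BigK p n) u) := by
  rw [MvPowerSeries.algebraMap_apply'', map_C]

lemma pvar_pow (j l : Fin n) : pvar p n j l ^ (p ^ s) =
    algebraMap (BaseS p s n) (BigP p n)
      (X j ^ (p ^ s) * C (cvar p s l) - X l ^ (p ^ s) * C (cvar p s j)) := by
  rw [pvar, sub_pow_char_pow, mul_pow, mul_pow, map_sub, map_mul, map_mul, map_pow, map_pow,
    algMap_X, algMap_X, algMap_C, algMap_C, algebraMap_cvar, algebraMap_cvar, map_pow, map_pow]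

lemma pvar_self (j : Fin n) : pvar p n j j = 0 := by
  rw [pvar, sub_self]

lemma pvar_mem_T (a0 l : Fin n) : pvar p n a0 l ∈ TAlg p s n a0 := by
  by_cases h : l = a0
  · rw [h, pvar_self]; exact zero_mem _
  · exact Algebra.subset_adjoin ⟨⟨l, h⟩, rfl⟩

lemma plucker (a0 j l : Fin n) : X a0 * pvar p n j l =
    X j * pvar p n a0 l - X l * pvar p n a0 j := by
  simp only [pvar]
  ring

lemma X_ne_zero_field {k : Type} [Field k] (i : Fin n) : (X i : MvPowerSeries (Fin n) k) ≠ 0 := by
  intro h
  have := congrArg (coeff (Finsupp.single i 1)) h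
  rw [coeff_X, if_pos rfl, map_zero] at this
  exact one_ne_zero this

lemma pvar_mem_R (a0 j l : Fin n) : pvar p n j l ∈ RAlg p s n a0 := by
  refine ⟨X a0, X_ne_zero_field a0, ?_⟩
  rw [Algebra.smul_def, algMap_X, plucker]
  refine sub_mem ?_ ?_
  · rw [← algMap_X (p := p) (s := s) j]
    exact Subalgebra.mul_mem _ (Subalgebra.algebraMap_mem _ _) (pvar_mem_T a0 l)
  · rw [← algMap_X (p := p) (s := s) l]
    exact Subalgebra.mul_mem _ (Subalgebra.algebraMap_mem _ _) (pvar_mem_T a0 j)

instance finite_P : Module.Finite (BaseS p s n) (BigP p n) :=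
  Module.Finite.of_basis (pBasis (xbasis p s n))

instance free_P : Module.Free (BaseS p s n) (BigP p n) :=
  Module.Free.of_basis (pBasis (xbasis p s n))

instance : FaithfulSMul (BaseS p s n) (BigP p n) :=
  (faithfulSMul_iff_algebraMap_injective _ _).mpr algebraMap_injective_P

instance finite_R (a0 : Fin n) : Module.Finite (BaseS p s n) (RAlg p s n a0) :=
  inferInstanceAs (Module.Finite (BaseS p s n) (Subalgebra.toSubmodule (RAlg p s n a0)))

instance noeth_R (a0 : Fin n) : IsNoetherianRing (RAlg p s n a0) :=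
  IsNoetherianRing.of_finite (BaseS p s n) (RAlg p s n a0)

lemma algMap_R_injective (a0 : Fin n) :
    Function.Injective (algebraMap (BaseS p s n) (RAlg p s n a0)) := by
  intro f g h
  exact algebraMap_injective_P (congrArg Subtype.val h)

instance (a0 : Fin n) : FaithfulSMul (BaseS p s n) (RAlg p s n a0) :=
  (faithfulSMul_iff_algebraMap_injective _ _).mpr (algMap_R_injective a0)

lemma pow_R (a0 : Fin n) (f : RAlg p s n a0) :
    ∃ g : BaseS p s n, algebraMap (BaseS p s n) (RAlg p s n a0) g = f ^ (p ^ s) := by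
  obtain ⟨g, hg⟩ := exists_pow_eq (xbasis p s n) p s exists_cvar (f : BigP p n)
  exact ⟨g, Subtype.ext hg⟩

lemma add_pow_R (a0 : Fin n) (f g : RAlg p s n a0) :
    (f + g) ^ (p ^ s) = f ^ (p ^ s) + g ^ (p ^ s) := by
  apply Subtype.ext
  exact add_pow_char_pow (f : BigP p n) (g : BigP p n) p s

instance local_R (a0 : Fin n) : IsLocalRing (RAlg p s n a0) :=
  isLocalRing_of_pow (algMap_R_injective a0) (pow_pos hp.out.pos s) (add_pow_R a0) (pow_R a0)

instance complete_R (a0 : Fin n) : IsAdicComplete (maximalIdeal (RAlg p s n a0)) (RAlg p s n a0) :=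
  isAdicComplete_of_pow (S := BaseS p s n) (algMap_R_injective a0) (pow_pos hp.out.pos s) (pow_R a0)

lemma dim_R (a0 : Fin n) : ringKrullDim (RAlg p s n a0) = n := by
  rw [ringKrullDim_eq_of_pow (S := BaseS p s n) (pow_pos hp.out.pos s) (algMap_R_injective a0)
    (pow_R a0)]
  exact ringKrullDim_mvPowerSeries

lemma char_R (a0 : Fin n) : CharP (RAlg p s n a0) p :=
  RingHom.charP (RAlg p s n a0).val.toRingHom Subtype.val_injective p

lemma normal_R (a0 : Fin n) : IsIntegrallyClosed (RAlg p s n a0) := by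
  have : IsIntegrallyClosed (BigP p n) := isIntegrallyClosed_mvPowerSeries (BigK p n) n
  exact isIntegrallyClosed_satur _

/-- rank of R over S is at most q^(n-1) -/
lemma finrank_R_le (a0 : Fin n) :
    Module.finrank (BaseS p s n) (RAlg p s n a0) ≤ (p ^ s) ^ (n - 1) := by
  let y : ({l : Fin n // l ≠ a0} → Fin (p ^ s)) → RAlg p s n a0 := fun e =>
    ∏ l : {l : Fin n // l ≠ a0}, (⟨pvar p n a0 l.1, pvar_mem_R a0 a0 l.1⟩ : RAlg p s n a0) ^ (e l).val
  have h := finrank_le_of_torsion (R := BaseS p s n) (M := RAlg p s n a0) y ?_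
  · refine h.trans (le_of_eq ?_)
    rw [Fintype.card_fun, Fintype.card_fin]
    congr 1
    simp [Fintype.card_subtype_compl]
  · intro f
    obtain ⟨t, ht, htf⟩ := f.2
    refine ⟨t, ht, ?_⟩
    have h1 := mem_span_of_mem_adjoin (pow_pos hp.out.pos s) _ (fun l : {l : Fin n // l ≠ a0} =>
      (X a0 ^ (p ^ s) * C (cvar p s l.1) - X l.1 ^ (p ^ s) * C (cvar p s a0) : BaseS p s n))
      (fun l => pvar_pow a0 l.1) htf
    rw [Submodule.mem_span_range_iff_exists_fun] at h1 ⊢
    obtain ⟨c, hc⟩ := h1
    refine ⟨c, ?_⟩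
    have hy : ∀ e, ((y e : RAlg p s n a0) : BigP p n) =
        ∏ l : {l : Fin n // l ≠ a0}, pvar p n a0 l.1 ^ (e l).val := by
      intro e
      simp only [y]
      rw [SubmonoidClass.coe_finsetProd]
      rfl
    have hl : ((∑ e, c e • y e : RAlg p s n a0) : BigP p n) = t • (f : BigP p n) := by
      rw [AddSubmonoidClass.coe_finsetSum, ← hc]
      refine Finset.sum_congr rfl fun e _ => ?_
      rw [← hy e]
      rfl
    exact Subtype.ext hl

lemma adjoin_P_eq_top :
    Algebra.adjoin (BaseS p s n) (Set.range fun j => (C (xvar p n j) : BigP p n)) = ⊤ := by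
  rw [eq_top_iff]
  intro f _
  rw [← (pBasis (xbasis p s n)).sum_repr f]
  refine sum_mem fun e _ => ?_
  refine Subalgebra.smul_mem _ ?_ _
  rw [pBasis_apply, xbasis_apply, map_prod]
  refine Subalgebra.prod_mem _ fun j _ => ?_
  rw [map_pow]
  exact Subalgebra.pow_mem _ (Algebra.subset_adjoin (Set.mem_range_self j)) _

/-- rank of P over R is at most q -/
lemma finrank_P_le (a0 : Fin n) :
    Module.finrank (RAlg p s n a0) (BigP p n) ≤ p ^ s := by
  refine finrank_le_of_adjoin_top (RAlg p s n a0) (fun j => (C (xvar p n j) : BigP p n))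
    (fun j => (X j : BaseS p s n)) a0 (X_ne_zero_field a0) ?_ adjoin_P_eq_top
    (pow_pos hp.out.pos s) (C (cvar p s a0)) ?_
  · intro j
    rw [algMap_X, algMap_X]
    exact pvar_mem_R (p := p) (s := s) a0 a0 j
  · rw [algMap_C, algebraMap_cvar, map_pow]

lemma finrank_P : Module.finrank (BaseS p s n) (BigP p n) = (p ^ s) ^ n := by
  rw [Module.finrank_eq_card_basis (pBasis (xbasis p s n)), Fintype.card_fun, Fintype.card_fin,
    Fintype.card_fin]

end P190
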