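import Vale.Agent.P190.Defs
import Vale.Agent.P190.Depth
import Vale.Agent.P190.Free
import Vale.Agent.P190.Residue
import Vale.Agent.P190.LinAlg
import Vale.Agent.P190.Ring

/-!
Ranks of small Cohen-Macaulay modules over the ring `R`.
-/

namespace P190

open MvPowerSeries IsLocalRing RingTheory.Sequence

universe v

variable {p : ℕ} [hp : Fact p.Prime] {s n : ℕ}

/-- transfer of the definition along a linear equivalence -/
lemma IsSmallCM.of_equiv {R : Type*} [CommRing R] [IsLocalRing R] {M : Type*} [AddCommGroup M]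
    [Module R M] {N : Type*} [AddCommGroup N] [Module R N] (e : M ≃ₗ[R] N) (h : IsSmallCM R M) :
    IsSmallCM R N := by
  obtain ⟨h1, h2, rs, h3, h4, h5⟩ := h
  exact ⟨Module.Finite.equiv e, e.symm.toEquiv.nontrivial, rs, h3, (e.isRegular_congr rs).mp h4, h5⟩

/-- a finite module has a model in the lowest universe -/
lemma exists_model {R : Type} [CommRing R] {M : Type v} [AddCommGroup M] [Module R M]
    (h : Module.Finite R M) :
    ∃ (N : Type) (_ : AddCommGroup N) (_ : Module R N), Nonempty (M ≃ₗ[R] N) := by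
  obtain ⟨m, f, hf⟩ := Module.Finite.exists_fin' R M
  exact ⟨_, inferInstance, inferInstance, ⟨(f.quotKerEquivOfSurjective hf).symm⟩⟩

lemma finrank_R_eq (a0 : Fin n) (hn : 1 ≤ n) :
    Module.finrank (BaseS p s n) (RAlg p s n a0) = (p ^ s) ^ (n - 1) ∧
      Module.finrank (RAlg p s n a0) (BigP p n) = p ^ s := by
  have h1 := finrank_R_le (p := p) (s := s) a0
  have h2 := finrank_P_le (p := p) (s := s) a0
  have h3 : Module.finrank (BaseS p s n) (RAlg p s n a0) *
      Module.finrank (RAlg p s n a0) (BigP p n) = (p ^ s) ^ n := by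
    rw [← finrank_P]
    exact Module.finrank_mul_finrank' _
  have hq : 0 < p ^ s := pow_pos hp.out.pos s
  have h4 : (p ^ s) ^ n = (p ^ s) ^ (n - 1) * p ^ s := by
    rw [← pow_succ, Nat.sub_add_cancel hn]
  rw [h4] at h3
  generalize Module.finrank (BaseS p s n) (RAlg p s n a0) = e at *
  generalize Module.finrank (RAlg p s n a0) (BigP p n) = r at *
  have hA : 0 < (p ^ s) ^ (n - 1) := pow_pos hq _
  constructor
  · refine le_antisymm h1 ?_
    by_contra hcon
    push Not at hcon
    have : e * r < (p ^ s) ^ (n - 1) * p ^ s := by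
      calc e * r ≤ e * p ^ s := Nat.mul_le_mul_left _ h2
        _ < (p ^ s) ^ (n - 1) * p ^ s := Nat.mul_lt_mul_of_pos_right hcon hq
    omega
  · refine le_antisymm h2 ?_
    by_contra hcon
    push Not at hcon
    have : e * r < (p ^ s) ^ (n - 1) * p ^ s := by
      calc e * r ≤ (p ^ s) ^ (n - 1) * r := Nat.mul_le_mul_right _ h1
        _ < (p ^ s) ^ (n - 1) * p ^ s := Nat.mul_lt_mul_of_pos_left hcon hA
    omega

section Generic

variable {n : ℕ} {k : Type} [Field k] {R : Type} [CommRing R] [IsLocalRing R] [IsNoetherianRing R]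
  [Algebra (MvPowerSeries (Fin n) k) R] [Module.Finite (MvPowerSeries (Fin n) k) R]

/-- The variables form a regular sequence on small Cohen-Macaulay modules. -/
lemma isWeaklyRegular_of_smallCM
    (hinj : Function.Injective (algebraMap (MvPowerSeries (Fin n) k) R)) {q : ℕ} (hq : 0 < q)
    (hpow : ∀ f : R, ∃ g : MvPowerSeries (Fin n) k, algebraMap _ R g = f ^ q)
    {M : Type} [AddCommGroup M] [Module R M] [Module (MvPowerSeries (Fin n) k) M]
    [IsScalarTower (MvPowerSeries (Fin n) k) R M] (hM : IsSmallCM R M) :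
    IsWeaklyRegular M (List.ofFn (fun j : Fin n => (X j : MvPowerSeries (Fin n) k))) := by
  obtain ⟨h1, h2, rs, h3, h4, h5⟩ := hM
  have hdim : ringKrullDim R = n := by
    rw [ringKrullDim_eq_of_pow (S := MvPowerSeries (Fin n) k) hq hinj hpow]
    exact ringKrullDim_mvPowerSeries
  have hlen : rs.length = n := by
    rw [hdim] at h5
    exact_mod_cast h5
  rw [← isWeaklyRegular_map_algebraMap_iff (S := R)]
  refine (isRegular_of_dim _ ⊥ (M := M) ?_ ?_ ⟨rs, by simpa using hlen, h3, h4⟩ ?_).toIsWeaklyRegular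
  · intro x hx
    simp only [List.map_ofFn, List.mem_ofFn, Function.comp] at hx
    obtain ⟨j, rfl⟩ := hx
    rw [mem_maximalIdeal_of_map hinj hq hpow, maximalIdeal_eq_ker, RingHom.mem_ker]
    simp
  · intro a ha m
    rw [Submodule.mem_bot] at ha
    rw [ha, zero_smul]
  · intro i hi P hP _ hmem
    simp only [List.length_map, List.length_ofFn] at hi ⊢
    rw [ringKrullDim_quot_eq_of_pow (S := MvPowerSeries (Fin n) k) hq hpow]
    have hle := ringKrullDim_quot_le (k := k) (n := n) (i + 1) hi
      (P.comap (algebraMap (MvPowerSeries (Fin n) k) R)) (by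
        intro j hj
        rw [Ideal.mem_comap]
        apply hmem
        rw [List.mem_take_iff_getElem]
        refine ⟨j.val, by simp [hj], by simp⟩)
    by_contra hcon
    rw [not_lt] at hcon
    have h6 : ((n - i : ℕ) : WithBot ℕ∞) + ((i + 1 : ℕ) : WithBot ℕ∞) ≤ (n : WithBot ℕ∞) :=
      (add_le_add hcon le_rfl).trans hle
    have h7 : n - i + (i + 1) ≤ n := by exact_mod_cast h6
    omega

/-- Small Cohen-Macaulay modules are free over the base. -/
lemma free_of_smallCM
    (hinj : Function.Injective (algebraMap (MvPowerSeries (Fin n) k) R)) {q : ℕ} (hq : 0 < q)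
    (hpow : ∀ f : R, ∃ g : MvPowerSeries (Fin n) k, algebraMap _ R g = f ^ q)
    {M : Type} [AddCommGroup M] [Module R M] [Module (MvPowerSeries (Fin n) k) M]
    [IsScalarTower (MvPowerSeries (Fin n) k) R M] (hM : IsSmallCM R M) :
    Module.Finite (MvPowerSeries (Fin n) k) M ∧ Module.Free (MvPowerSeries (Fin n) k) M := by
  have h1 := hM.finite
  have hfin : Module.Finite (MvPowerSeries (Fin n) k) M := Module.Finite.trans R M
  exact ⟨hfin, free_of_regular n (MvPowerSeries (Fin n) k) M _ (by simp)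
    ofList_ofFn_X_eq_maximalIdeal (isWeaklyRegular_of_smallCM hinj hq hpow hM)⟩

lemma dvd_finrank_of_smallCM
    (hinj : Function.Injective (algebraMap (MvPowerSeries (Fin n) k) R)) {q : ℕ} (hq : 0 < q)
    (hpow : ∀ f : R, ∃ g : MvPowerSeries (Fin n) k, algebraMap _ R g = f ^ q)
    (hn : 3 ≤ n) (a0 : Fin n) (h0 : a0.val = 0) (c : Fin n → k) (P : Fin n → Fin n → R)
    (hP : ∀ j l, algebraMap (MvPowerSeries (Fin n) k) R (X a0) * P j l =
      algebraMap (MvPowerSeries (Fin n) k) R (X j) * P a0 l -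
        algebraMap (MvPowerSeries (Fin n) k) R (X l) * P a0 j)
    (hPq : ∀ j l, P j l ^ q =
      algebraMap (MvPowerSeries (Fin n) k) R (X j ^ q * C (c l) - X l ^ q * C (c j)))
    {K : Type} [Field K] [Algebra k K] (x : Fin n → K) (hx : ∀ j, x j ^ q = algebraMap k K (c j))
    (b : Module.Basis (Fin n → Fin q) k K) (hb : ∀ e, b e = ∏ j, x j ^ (e j).val)
    {M : Type} [AddCommGroup M] [Module R M] [Module (MvPowerSeries (Fin n) k) M]
    [IsScalarTower (MvPowerSeries (Fin n) k) R M] (hM : IsSmallCM R M) :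
    q ^ n ∣ Module.finrank (MvPowerSeries (Fin n) k) M ∧
      0 < Module.finrank (MvPowerSeries (Fin n) k) M := by
  classical
  obtain ⟨hfin, hfree⟩ := free_of_smallCM hinj hq hpow hM
  have hnt := hM.nontrivial
  let B := Module.Free.chooseBasis (MvPowerSeries (Fin n) k) M
  let Φ : R →ₐ[MvPowerSeries (Fin n) k]
      Matrix (Module.Free.ChooseBasisIndex (MvPowerSeries (Fin n) k) M)
        (Module.Free.ChooseBasisIndex (MvPowerSeries (Fin n) k) M) (MvPowerSeries (Fin n) k) :=
    (LinearMap.toMatrixAlgEquiv B).toAlgHom.comp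
      (Algebra.lsmul (MvPowerSeries (Fin n) k) (MvPowerSeries (Fin n) k) M)
  have g1 : ∀ i j i' j', Φ (P i j) * Φ (P i' j') = Φ (P i' j') * Φ (P i j) := by
    intro i j i' j'
    rw [← map_mul, ← map_mul, mul_comm]
  have g2 : ∀ j l, (X a0 : MvPowerSeries (Fin n) k) • Φ (P j l) =
      (X j : MvPowerSeries (Fin n) k) • Φ (P a0 l) -
        (X l : MvPowerSeries (Fin n) k) • Φ (P a0 j) := by
    intro j l
    have := congrArg Φ (hP j l)
    rw [map_mul, map_sub, map_mul, map_mul, AlgHom.commutes, AlgHom.commutes,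
      AlgHom.commutes] at this
    simpa only [Algebra.smul_def] using this
  have g3 : ∀ j l, Φ (P j l) ^ q =
      (X j ^ q * C (c l) - X l ^ q * C (c j) : MvPowerSeries (Fin n) k) • 1 := by
    intro j l
    rw [← map_pow, hPq, AlgHom.commutes, Algebra.algebraMap_eq_smul_one]
  obtain ⟨Y, hY1, hY2⟩ := residue_matrices (k := k) hn q hq.ne' a0 h0 c
    (fun j l => Φ (P j l)) g1 g2 g3
  refine ⟨?_, Module.finrank_pos⟩
  rw [Module.finrank_eq_card_basis B]
  exact dvd_card hq x c hx b hb Y hY1 hY2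

omit [Module.Finite (MvPowerSeries (Fin n) k) R] in
/-- A finite power series extension is a small Cohen-Macaulay module. -/
lemma smallCM_of_map
    (hinj : Function.Injective (algebraMap (MvPowerSeries (Fin n) k) R)) {q : ℕ} (hq : 0 < q)
    (hpow : ∀ f : R, ∃ g : MvPowerSeries (Fin n) k, algebraMap _ R g = f ^ q)
    {K : Type} [Field K] [Algebra R (MvPowerSeries (Fin n) K)]
    [Module.Finite R (MvPowerSeries (Fin n) K)]
    (hmap : ∀ j, algebraMap R (MvPowerSeries (Fin n) K)
      (algebraMap (MvPowerSeries (Fin n) k) R (X j)) = X j) :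
    IsSmallCM R (MvPowerSeries (Fin n) K) := by
  have hdim : ringKrullDim R = n := by
    rw [ringKrullDim_eq_of_pow (S := MvPowerSeries (Fin n) k) hq hinj hpow]
    exact ringKrullDim_mvPowerSeries
  have hmem : ∀ r ∈ List.ofFn (fun j : Fin n =>
      algebraMap (MvPowerSeries (Fin n) k) R (X j)), r ∈ maximalIdeal R := by
    intro r hr
    rw [List.mem_ofFn] at hr
    obtain ⟨j, rfl⟩ := hr
    rw [mem_maximalIdeal_of_map hinj hq hpow, maximalIdeal_eq_ker, RingHom.mem_ker]
    simp
  refine ⟨inferInstance, inferInstance, List.ofFn (fun j : Fin n =>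
    algebraMap (MvPowerSeries (Fin n) k) R (X j)), hmem, ?_, ?_⟩
  · refine IsRegular.of_isWeaklyRegular_of_mem_maximalIdeal (L := MvPowerSeries (Fin n) K) hmem ?_
    rw [← isWeaklyRegular_map_algebraMap_iff (S := MvPowerSeries (Fin n) K), List.map_ofFn]
    have : (algebraMap R (MvPowerSeries (Fin n) K) ∘ fun j : Fin n =>
        algebraMap (MvPowerSeries (Fin n) k) R (X j)) =
          fun j => (X j : MvPowerSeries (Fin n) K) := by
      funext j
      exact hmap j
    rw [this]
    exact isWeaklyRegular_X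
  · rw [hdim, List.length_ofFn]

end Generic

section Final

/-- The power series ring over the big field is a small Cohen-Macaulay module. -/
lemma smallCM_P (a0 : Fin n) : IsSmallCM (RAlg p s n a0) (BigP p n) := by
  have hfin : Module.Finite (RAlg p s n a0) (BigP p n) :=
    Module.Finite.of_restrictScalars_finite (BaseS p s n) _ _
  exact smallCM_of_map (R := RAlg p s n a0) (algMap_R_injective a0) (pow_pos hp.out.pos s)
    (pow_R a0) algMap_X

/-- The ranks of small Cohen-Macaulay modules over `R` are divisible by `q`. -/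
lemma dvd_rank_zero (hn : 3 ≤ n) (a0 : Fin n) (h0 : a0.val = 0)
    {M : Type} [AddCommGroup M] [Module (RAlg p s n a0) M]
    (hM : IsSmallCM (RAlg p s n a0) M) :
    p ^ s ∣ Module.finrank (RAlg p s n a0) M ∧ 0 < Module.finrank (RAlg p s n a0) M := by
  let _ : Module (BaseS p s n) M :=
    Module.compHom M (algebraMap (BaseS p s n) (RAlg p s n a0))
  have htower : IsScalarTower (BaseS p s n) (RAlg p s n a0) M := by
    constructor
    intro a r m
    rw [Algebra.smul_def, mul_smul]
    rfl
  have hfin := hM.finite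
  have hq : 0 < p ^ s := pow_pos hp.out.pos s
  have hP : ∀ j l, algebraMap (BaseS p s n) (RAlg p s n a0) (X a0) *
      (⟨pvar p n j l, pvar_mem_R a0 j l⟩ : RAlg p s n a0) =
      algebraMap (BaseS p s n) (RAlg p s n a0) (X j) * ⟨pvar p n a0 l, pvar_mem_R a0 a0 l⟩ -
      algebraMap (BaseS p s n) (RAlg p s n a0) (X l) * ⟨pvar p n a0 j, pvar_mem_R a0 a0 j⟩ := by
    intro j l
    apply Subtype.ext
    have := plucker (p := p) a0 j l
    rw [← algMap_X (p := p) (s := s) a0, ← algMap_X (p := p) (s := s) j,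
      ← algMap_X (p := p) (s := s) l] at this
    exact this
  have hPq : ∀ j l, (⟨pvar p n j l, pvar_mem_R a0 j l⟩ : RAlg p s n a0) ^ (p ^ s) =
      algebraMap (BaseS p s n) (RAlg p s n a0)
        (X j ^ (p ^ s) * C (cvar p s l) - X l ^ (p ^ s) * C (cvar p s j)) := by
    intro j l
    apply Subtype.ext
    exact pvar_pow j l
  obtain ⟨h1, h2⟩ := dvd_finrank_of_smallCM (R := RAlg p s n a0) (algMap_R_injective a0) hq
    (pow_R a0) hn a0 h0 (cvar p s) (fun j l => ⟨pvar p n j l, pvar_mem_R a0 j l⟩) hP hPq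
    (xvar p n) (fun j => (algebraMap_cvar j).symm) (xbasis p s n) (xbasis_apply p s n) hM
  rw [finrank_tower (S := BaseS p s n) (R := RAlg p s n a0) (M := M),
    (finrank_R_eq a0 (by omega)).1] at h1 h2
  refine ⟨?_, Nat.pos_of_mul_pos_left h2⟩
  have h4 : (p ^ s) ^ n = (p ^ s) ^ (n - 1) * p ^ s := by
    rw [← pow_succ, Nat.sub_add_cancel (by omega)]
  rw [h4] at h1
  exact Nat.dvd_of_mul_dvd_mul_left (pow_pos hq _) h1

/-- The same in every universe. -/
lemma dvd_rank (hn : 3 ≤ n) (a0 : Fin n) (h0 : a0.val = 0)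
    {M : Type v} [AddCommGroup M] [Module (RAlg p s n a0) M]
    (hM : IsSmallCM (RAlg p s n a0) M) :
    p ^ s ∣ Module.finrank (RAlg p s n a0) M ∧ 0 < Module.finrank (RAlg p s n a0) M := by
  obtain ⟨N, _, _, ⟨e⟩⟩ := exists_model hM.finite
  rw [e.finrank_eq]
  exact dvd_rank_zero hn a0 h0 (hM.of_equiv e)

end Final

end P190
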