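import Mathlib

/-!
Ideals generated by variables in multivariate power series rings.
-/

namespace P190

open IsLocalRing RingTheory.Sequence MvPowerSeries
open scoped Pointwise

universe u

variable {σ : Type} {A : Type u} [CommRing A]

instance [IsDomain A] : IsDomain (MvPowerSeries σ A) := NoZeroDivisors.to_isDomain _

/-- Membership in the ideal generated by a finite set of variables. -/
lemma mem_span_X_iff [DecidableEq σ] (T : Finset σ) (f : MvPowerSeries σ A) :
    f ∈ Ideal.span ((fun i => (X i : MvPowerSeries σ A)) '' (T : Set σ)) ↔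
      ∀ m : σ →₀ ℕ, (∀ j ∈ T, m j = 0) → coeff m f = 0 := by
  constructor
  · intro hf
    refine Submodule.span_induction
      (p := fun g _ => ∀ m : σ →₀ ℕ, (∀ j ∈ T, m j = 0) → coeff m g = 0) ?_ ?_ ?_ ?_ hf
    · rintro _ ⟨j, hj, rfl⟩ m hm
      exact X_dvd_iff.mp (dvd_refl (X j : MvPowerSeries σ A)) m (hm j hj)
    · intro m _; simp
    · intro x y _ _ hx hy m hm
      rw [map_add, hx m hm, hy m hm, add_zero]
    · intro g x _ hx m hm
      rw [smul_eq_mul, coeff_mul]
      refine Finset.sum_eq_zero fun ab hab => ?_
      rw [Finset.HasAntidiagonal.mem_antidiagonal] at hab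
      rw [hx ab.2 (fun j hj => ?_), mul_zero]
      have := hm j hj
      rw [← hab, Finsupp.add_apply] at this
      omega
  · induction T using Finset.induction_on generalizing f with
    | empty =>
      intro h
      have : f = 0 := by
        ext m
        simpa using h m (by simp)
      rw [this]; exact zero_mem _
    | insert j T hj ih =>
      intro h
      let f1 : MvPowerSeries σ A := fun m => if m j = 0 then 0 else coeff m f
      let f2 : MvPowerSeries σ A := fun m => if m j = 0 then coeff m f else 0
      have hf1 : ∀ m, coeff m f1 = if m j = 0 then 0 else coeff m f := fun m => rfl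
      have hf2 : ∀ m, coeff m f2 = if m j = 0 then coeff m f else 0 := fun m => rfl
      have hf : f = f1 + f2 := by
        ext m
        rw [map_add, hf1, hf2]
        split_ifs <;> simp
      rw [hf]
      refine add_mem ?_ ?_
      · have hdvd : (X j : MvPowerSeries σ A) ∣ f1 := by
          rw [X_dvd_iff]
          intro m hm
          rw [hf1, if_pos hm]
        obtain ⟨g, hg⟩ := hdvd
        rw [hg]
        exact Ideal.mul_mem_right _ _ (Ideal.subset_span ⟨j, by simp, rfl⟩)
      · have h2 := ih f2 (by
          intro m hm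
          rw [hf2]
          split_ifs with hmj
          · refine h m fun i hi => ?_
            rw [Finset.mem_insert] at hi
            rcases hi with rfl | hi
            · exact hmj
            · exact hm i hi
          · rfl)
        refine Ideal.span_mono ?_ h2
        apply Set.image_mono
        simp

/-- A variable is regular modulo other variables. -/
lemma X_mul_mem_span [DecidableEq σ] (T : Finset σ) {i : σ} (hi : i ∉ T) {f : MvPowerSeries σ A}
    (h : X i * f ∈ Ideal.span ((fun i => (X i : MvPowerSeries σ A)) '' (T : Set σ))) :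
    f ∈ Ideal.span ((fun i => (X i : MvPowerSeries σ A)) '' (T : Set σ)) := by
  rw [mem_span_X_iff] at h ⊢
  intro m hm
  have := h (Finsupp.single i 1 + m) (by
    intro j hj
    rw [Finsupp.add_apply, hm j hj, Finsupp.single_apply, if_neg, add_zero]
    rintro rfl
    exact hi hj)
  rw [X, coeff_add_monomial_mul, one_mul] at this
  exact this

section Fin

variable {n : ℕ}

lemma ofList_take_ofFn (i : ℕ) :
    Ideal.ofList ((List.ofFn (fun j : Fin n => (X j : MvPowerSeries (Fin n) A))).take i) =
      Ideal.span ((fun j => (X j : MvPowerSeries (Fin n) A)) ''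
        ((Finset.univ.filter (fun j : Fin n => j.val < i) : Finset (Fin n)) : Set (Fin n))) := by
  unfold Ideal.ofList
  congr 1
  ext f
  simp only [Set.mem_ofPred_eq, Finset.coe_filter, Finset.mem_univ, true_and, Set.mem_image]
  constructor
  · intro h
    rw [List.mem_take_iff_getElem] at h
    obtain ⟨j, hj, rfl⟩ := h
    simp only [List.length_ofFn, lt_inf_iff] at hj
    refine ⟨⟨j, hj.2⟩, hj.1, ?_⟩
    simp
  · rintro ⟨j, hj, rfl⟩
    rw [List.mem_take_iff_getElem]
    refine ⟨j.val, by simpa using hj, ?_⟩
    simp

lemma ofList_ofFn_X :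
    Ideal.ofList (List.ofFn (fun j : Fin n => (X j : MvPowerSeries (Fin n) A))) =
      RingHom.ker (constantCoeff (σ := Fin n) (R := A)) := by
  have := ofList_take_ofFn (A := A) (n := n) n
  rw [List.take_of_length_le (by simp)] at this
  rw [this]
  ext f
  rw [mem_span_X_iff, RingHom.mem_ker, ← coeff_zero_eq_constantCoeff_apply]
  constructor
  · intro h
    exact h 0 (by simp)
  · intro h m hm
    have : m = 0 := by
      ext j
      simpa using hm j (by simp)
    rw [this, h]

lemma isWeaklyRegular_X :
    IsWeaklyRegular (MvPowerSeries (Fin n) A)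
      (List.ofFn (fun j : Fin n => (X j : MvPowerSeries (Fin n) A))) := by
  rw [isWeaklyRegular_iff]
  intro i hi
  rw [ofList_take_ofFn]
  have hi' : i < n := by simpa using hi
  rw [isSMulRegular_iff_right_eq_zero_of_smul]
  intro y hy
  obtain ⟨f, rfl⟩ := Submodule.Quotient.mk_surjective _ y
  rw [← Submodule.Quotient.mk_smul, Submodule.Quotient.mk_eq_zero] at hy
  rw [Submodule.Quotient.mk_eq_zero]
  simp only [List.getElem_ofFn, smul_eq_mul, Ideal.mul_top] at hy ⊢
  exact X_mul_mem_span _ (by simp) hy

lemma isRegular_X [Nontrivial A] :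
    IsRegular (MvPowerSeries (Fin n) A)
      (List.ofFn (fun j : Fin n => (X j : MvPowerSeries (Fin n) A))) := by
  refine ⟨isWeaklyRegular_X, ?_⟩
  rw [ofList_ofFn_X]
  intro h
  have h1 : (1 : MvPowerSeries (Fin n) A) ∈ RingHom.ker (constantCoeff (σ := Fin n) (R := A)) := by
    have : (1 : MvPowerSeries (Fin n) A) ∈ (⊤ : Ideal (MvPowerSeries (Fin n) A)) := trivial
    rw [h, smul_eq_mul, Ideal.mul_top] at this
    exact this
  rw [RingHom.mem_ker, map_one] at h1
  exact one_ne_zero h1

end Fin

section Field

variable {n : ℕ} {k : Type u} [Field k]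

lemma maximalIdeal_eq_ker :
    maximalIdeal (MvPowerSeries (Fin n) k) = RingHom.ker (constantCoeff (σ := Fin n) (R := k)) := by
  ext f
  rw [IsLocalRing.mem_maximalIdeal, mem_nonunits_iff, isUnit_iff_constantCoeff, RingHom.mem_ker,
    isUnit_iff_ne_zero, not_not]

lemma ofList_ofFn_X_eq_maximalIdeal :
    Ideal.ofList (List.ofFn (fun j : Fin n => (X j : MvPowerSeries (Fin n) k))) =
      maximalIdeal (MvPowerSeries (Fin n) k) := by
  rw [ofList_ofFn_X, maximalIdeal_eq_ker]

lemma span_range_X_eq_maximalIdeal :
    Ideal.span (Set.range (fun j : Fin n => (X j : MvPowerSeries (Fin n) k))) =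
      maximalIdeal (MvPowerSeries (Fin n) k) := by
  rw [← ofList_ofFn_X_eq_maximalIdeal]
  unfold Ideal.ofList
  congr 1
  ext f
  simp [List.mem_ofFn]

instance isAdicComplete_maximal :
    IsAdicComplete (maximalIdeal (MvPowerSeries (Fin n) k)) (MvPowerSeries (Fin n) k) := by
  rw [← span_range_X_eq_maximalIdeal]
  infer_instance

lemma ringKrullDim_take (i : ℕ) (hi : i ≤ n) :
    ringKrullDim (MvPowerSeries (Fin n) k ⧸ Ideal.ofList
      ((List.ofFn (fun j : Fin n => (X j : MvPowerSeries (Fin n) k))).take i)) + (i : WithBot ℕ∞) =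
      ringKrullDim (MvPowerSeries (Fin n) k) := by
  have h := isRegular_X (n := n) (A := k)
  have hreg : IsRegular (MvPowerSeries (Fin n) k)
      ((List.ofFn (fun j : Fin n => (X j : MvPowerSeries (Fin n) k))).take i) := by
    refine IsRegular.of_isWeaklyRegular_of_mem_maximalIdeal (L := MvPowerSeries (Fin n) k) ?_ ?_
    · intro r hr
      have := List.mem_of_mem_take hr
      rw [← ofList_ofFn_X_eq_maximalIdeal]
      exact Ideal.subset_span this
    · have h2 := h.toIsWeaklyRegular
      rw [← List.take_append_drop i (List.ofFn _), isWeaklyRegular_append_iff] at h2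
      exact h2.1
  have := ringKrullDim_add_length_eq_ringKrullDim_of_isRegular _ hreg
  rw [← this]
  congr 2
  simp [hi]

lemma ringKrullDim_mvPowerSeries :
    ringKrullDim (MvPowerSeries (Fin n) k) = n := by
  rw [← ringKrullDim_take n le_rfl, List.take_of_length_le (by simp),
    ofList_ofFn_X_eq_maximalIdeal]
  have : ringKrullDim (MvPowerSeries (Fin n) k ⧸ maximalIdeal (MvPowerSeries (Fin n) k)) = 0 := by
    apply ringKrullDim_eq_zero_of_isField
    exact Ideal.Quotient.maximal_ideal_iff_isField_quotient _ |>.mp inferInstance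
  rw [this, zero_add]

/-- The dimension of the quotient by a prime containing the first `i` variables. -/
lemma ringKrullDim_quot_le (i : ℕ) (hi : i ≤ n) (P : Ideal (MvPowerSeries (Fin n) k))
    (hP : ∀ j : Fin n, j.val < i → (X j : MvPowerSeries (Fin n) k) ∈ P) :
    ringKrullDim (MvPowerSeries (Fin n) k ⧸ P) + (i : WithBot ℕ∞) ≤ n := by
  rw [← ringKrullDim_mvPowerSeries (k := k) (n := n), ← ringKrullDim_take i hi]
  gcongr
  have hle : Ideal.ofList
      ((List.ofFn (fun j : Fin n => (X j : MvPowerSeries (Fin n) k))).take i) ≤ P := by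
    rw [ofList_take_ofFn, Ideal.span_le]
    rintro _ ⟨j, hj, rfl⟩
    exact hP j (by simpa using hj)
  exact ringKrullDim_le_of_surjective (Ideal.Quotient.factor hle)
    (Ideal.Quotient.factor_surjective hle)

end Field

end P190
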