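import Mathlib

/-!
Ranks of finite modules over domains and the tower law.
-/

namespace P190

open Module

universe u v w

section General

variable {R : Type u} [CommRing R] [IsDomain R] {M : Type v} [AddCommGroup M] [Module R M]

lemma finrank_le_of_torsion {ι : Type w} [Fintype ι] (y : ι → M)
    (h : ∀ m : M, ∃ a : R, a ≠ 0 ∧ a • m ∈ Submodule.span R (Set.range y)) :
    finrank R M ≤ Fintype.card ι := by
  classical
  apply finrank_le_of_rank_le
  have h1 := rank_quotient_add_rank_of_isDomain (R := R) (Submodule.span R (Set.range y))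
  have h2 : Module.rank R (M ⧸ Submodule.span R (Set.range y)) = 0 := by
    rw [rank_eq_zero_iff]
    intro x
    obtain ⟨m, rfl⟩ := Submodule.Quotient.mk_surjective _ x
    obtain ⟨a, ha, ham⟩ := h m
    exact ⟨a, ha, by rw [← Submodule.Quotient.mk_smul, Submodule.Quotient.mk_eq_zero]; exact ham⟩
  rw [h2, zero_add] at h1
  rw [← h1]
  refine (rank_span_le _).trans ?_
  rw [Cardinal.mk_fintype]
  exact_mod_cast Fintype.card_range_le y

lemma exists_indep_torsion [Module.Finite R M] :
    ∃ y : Fin (finrank R M) → M, LinearIndependent R y ∧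
      ∀ m : M, ∃ a : R, a ≠ 0 ∧ a • m ∈ Submodule.span R (Set.range y) := by
  obtain ⟨s, hs, hli⟩ := exists_set_linearIndependent_of_isDomain R M
  have hlt : Module.rank R M < Cardinal.aleph0 := rank_lt_aleph0 R M
  have hfin : Finite s := by
    rw [← hs] at hlt
    exact Cardinal.lt_aleph0_iff_finite.mp hlt
  have hcard : Nat.card s = finrank R M := by
    rw [finrank, ← hs]
    rfl
  have e : Fin (finrank R M) ≃ s := by
    rw [← hcard]
    exact (Finite.equivFin s).symm
  have hrange : Set.range (fun i => (e i : M)) = s := by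
    ext x
    constructor
    · rintro ⟨i, rfl⟩
      exact (e i).2
    · intro hx
      exact ⟨e.symm ⟨x, hx⟩, by simp⟩
  refine ⟨fun i => (e i : M), ?_, ?_⟩
  · have : LinearIndependent R (fun x : s => (x : M)) := hli
    exact this.comp e e.injective
  · rw [hrange]
    have h1 := rank_quotient_add_rank_of_isDomain (R := R) (Submodule.span R s)
    have h3 : Module.rank R (Submodule.span R s) = Cardinal.mk s := by
      exact rank_span_set hli
    have h2 : Module.rank R (M ⧸ Submodule.span R s) = 0 := by
      rw [h3, hs] at h1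
      exact Cardinal.eq_of_add_eq_add_right (h1.trans (zero_add _).symm) hlt
    intro m
    rw [rank_eq_zero_iff] at h2
    obtain ⟨a, ha, ham⟩ := h2 (Submodule.Quotient.mk m)
    rw [← Submodule.Quotient.mk_smul, Submodule.Quotient.mk_eq_zero] at ham
    exact ⟨a, ha, ham⟩

end General

section Tower

variable {S : Type u} {R : Type v} [CommRing S] [CommRing R] [IsDomain S] [IsDomain R]
  [Algebra S R] [FaithfulSMul S R] [Module.Finite S R]
  {M : Type w} [AddCommGroup M] [Module R M] [Module S M] [IsScalarTower S R M]

/-- common multiples for finitely many elements -/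
lemma exists_common {N : Type*} [AddCommGroup N] [Module S N] (W : Submodule S N)
    {ι : Type*} (T : Finset ι) (y : ι → N) (h : ∀ i, ∃ a : S, a ≠ 0 ∧ a • y i ∈ W) :
    ∃ a : S, a ≠ 0 ∧ ∀ i ∈ T, a • y i ∈ W := by
  classical
  induction T using Finset.induction_on with
  | empty => exact ⟨1, one_ne_zero, by simp⟩
  | insert i T hi ih =>
    obtain ⟨a, ha, haT⟩ := ih
    obtain ⟨b, hb, hbi⟩ := h i
    refine ⟨a * b, mul_ne_zero ha hb, fun j hj => ?_⟩
    rw [Finset.mem_insert] at hj
    rcases hj with rfl | hj
    · rw [mul_smul]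
      exact W.smul_mem _ hbi
    · rw [mul_comm, mul_smul]
      exact W.smul_mem _ (haT j hj)

/-- Tower law for finite modules over a finite extension of domains. -/
lemma finrank_tower [Module.Finite R M] :
    finrank S M = finrank S R * finrank R M := by
  obtain ⟨u, hu, hut⟩ := exists_indep_torsion (R := S) (M := R)
  obtain ⟨y, hy, hyt⟩ := exists_indep_torsion (R := R) (M := M)
  have hfin : Module.Finite S M := Module.Finite.trans R M
  have hli := linearIndependent_smul hu hy
  refine le_antisymm ?_ ?_
  · have := finrank_le_of_torsion (R := S) (M := M)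
      (fun ij : Fin (finrank S R) × Fin (finrank R M) => u ij.1 • y ij.2) ?_
    · simpa using this
    · intro m
      obtain ⟨r, hr, hrm⟩ := hyt m
      -- a nonzero multiple of r in S
      obtain ⟨s, hs, hsr⟩ : ∃ s : S, s ≠ 0 ∧ ∃ r', r * r' = algebraMap S R s := by
        have halg : IsAlgebraic S r := Algebra.IsAlgebraic.isAlgebraic r
        obtain ⟨s, hs, hd⟩ := halg.exists_nonzero_dvd (mem_nonZeroDivisors_of_ne_zero hr)
        obtain ⟨r', hr'⟩ := hd
        exact ⟨s, hs, r', hr'.symm⟩
      obtain ⟨r', hr'⟩ := hsr
      have hsm : s • m ∈ Submodule.span R (Set.range y) := by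
        rw [← algebraMap_smul R s m, ← hr', mul_comm, mul_smul]
        exact Submodule.smul_mem _ _ hrm
      rw [Submodule.mem_span_range_iff_exists_fun] at hsm
      obtain ⟨c, hc⟩ := hsm
      obtain ⟨t, ht, htc⟩ := exists_common (Submodule.span S (Set.range u)) Finset.univ c
        (fun j => hut (c j))
      refine ⟨t * s, mul_ne_zero ht hs, ?_⟩
      rw [mul_smul, ← hc, Finset.smul_sum]
      refine sum_mem fun j _ => ?_
      rw [← smul_assoc]
      have h1 := htc j (Finset.mem_univ j)
      rw [Submodule.mem_span_range_iff_exists_fun] at h1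
      obtain ⟨d, hd⟩ := h1
      rw [← hd, Finset.sum_smul]
      refine sum_mem fun i _ => ?_
      rw [smul_assoc]
      exact Submodule.smul_mem _ _ (Submodule.subset_span ⟨(i, j), rfl⟩)
  · have := hli.fintype_card_le_finrank
    simpa using this

end Tower

end P190
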